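/-!
A checker for certificates of the Snaky game, on bit masks of a `15 × 15` window.  It is written
with raw recursors and in continuation passing style, which the kernel evaluates quickly.

A certificate is a stream of bits: a list of natural numbers, each with a sentinel top bit.
-/

namespace Vale.Agent.Lib.P062

/-- bit field of `r` at position `s` with mask `m` -/
def bitf (r s m : Nat) : Nat := Nat.land (Nat.shiftRight r s) m

/-- head of a list of chunks -/
noncomputable def hd (l : List Nat) : Nat := List.rec 1 (fun a _ _ => a) l

/-- tail of a list of chunks -/
noncomputable def tl (l : List Nat) : List Nat := List.rec [] (fun _ t _ => t) l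

/-- The bit masks of the eight orientations of Snaky, normalized to the lower left corner of the
window, with 80 bits for each. -/
def baseTab : Nat := 0x2000400080018001000000000000000f00030000100020004001800200000000000000078018000010006000800100020000000000000001801e00002000600040008001000000000000000c000f

/-- widths of the orientations, 4 bits each -/
def dimW : Nat := 0x25252525

/-- heights of the orientations, 4 bits each -/
def dimH : Nat := 0x52525252

/-- the mask of a copy: orientation `o` shifted by `pos` -/
def cpat (o pos : Nat) : Nat :=
  Nat.shiftLeft (bitf baseTab (Nat.mul o 80) 0xffffffffffffffffffff) pos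

/-- Check of a leaf: the copy `cpat o pos` lies in the window and `x` is its only cell that is not
in `m`. -/
def leafOK (m o pos x : Nat) : Bool :=
  cond (Nat.ble o 7)
   (cond (Nat.ble x 224)
    (cond (Nat.ble (Nat.add (Nat.mod pos 15) (bitf dimW (Nat.mul o 4) 15)) 15)
     (cond (Nat.ble (Nat.add (Nat.div pos 15) (bitf dimH (Nat.mul o 4) 15)) 15)
       (Nat.beq (Nat.xor (cpat o pos) (Nat.land (cpat o pos) m)) (Nat.shiftLeft 1 x))
      false) false) false) false

/-- continuation of the checker: it receives a zone and the state of the stream -/
abbrev K := Nat → Nat → List Nat → Bool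

/-- End of the children of a node with new stones `m'` and move `x`: the children zones with union
`tot` and intersection `inter` must leave no free cell in `inter`. -/
def kidsEnd (m' x : Nat) (k : K) (tot inter buf : Nat) (rest : List Nat) : Bool :=
  cond (Nat.beq (Nat.lor inter m') m') (k (Nat.lor tot (Nat.shiftLeft 1 x)) buf rest) false

/-- Loop over further children of a node. -/
noncomputable def kids (rc : Nat → Nat → List Nat → K → Bool) (m' x : Nat) (k : K) (f : Nat) :
    Nat → Nat → Nat → List Nat → Bool :=
  Nat.rec (fun _ _ _ _ => false)
    (fun _ ih tot inter buf rest =>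
      cond (Nat.beq buf 1)
       (cond (Nat.beq (Nat.land (hd rest) 1) 0)
         (kidsEnd m' x k tot inter (Nat.shiftRight (hd rest) 1) (tl rest))
         (rc m' (Nat.shiftRight (hd rest) 1) (tl rest)
           (fun z b r => ih (Nat.lor tot z) (Nat.land inter z) b r)))
       (cond (Nat.beq (Nat.land buf 1) 0)
         (kidsEnd m' x k tot inter (Nat.shiftRight buf 1) rest)
         (rc m' (Nat.shiftRight buf 1) rest
           (fun z b r => ih (Nat.lor tot z) (Nat.land inter z) b r)))) f

/-- The checker: with fuel `f`, stones `m` and stream `buf`, `rest`, it reads a node of the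
certificate, checks it and passes its zone to the continuation. -/
noncomputable def chk (f : Nat) : Nat → Nat → List Nat → K → Bool :=
  Nat.rec (fun _ _ _ _ => false)
   (fun _ ih m buf rest k =>
     cond (Nat.beq buf 1) (ih m (hd rest) (tl rest) k)
      (cond (Nat.beq (Nat.land buf 1) 0)
        (cond (leafOK m (bitf buf 1 7) (bitf buf 4 255) (bitf buf 12 255))
           (k (cpat (bitf buf 1 7) (bitf buf 4 255)) (Nat.shiftRight buf 20) rest) false)
        (cond (Nat.ble 225 (bitf buf 1 255)) false
          (cond (Nat.testBit m (bitf buf 1 255)) false
            (ih (Nat.lor m (Nat.shiftLeft 1 (bitf buf 1 255))) (Nat.shiftRight buf 9) rest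
              (fun z b r => kids ih (Nat.lor m (Nat.shiftLeft 1 (bitf buf 1 255)))
                (bitf buf 1 255) k 255 z z b r)))))) f

end Vale.Agent.Lib.P062
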