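import Mathlib.Data.Finset.Image
import Mathlib.Data.Int.Basic

/-!
# The Snaky achievement game on the plane

Cells are pairs of integers. `snaky` is the hexomino of the problem, `IsCopy` says that a set of
cells is the image of `snaky` under one of the eight signed permutation matrices followed by a
translation. `MakerForces n M B` says that, when Maker holds the cells `M`, Breaker holds the
cells `B` and Maker is to move, Maker can force a win in at most `n` further moves.
-/

namespace Vale.Agent.Lib.P062

/-- A cell of the square grid. -/
abbrev Cell := ℤ × ℤ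

/-- The hexomino Snaky. -/
def snaky : Finset Cell := {(0, 0), (1, 0), (2, 0), (3, 0), (3, 1), (4, 1)}

/-- The integer matrix with rows `(a, b)` and `(c, d)` is one of the eight signed permutation
matrices. -/
def IsSignedPerm (a b c d : ℤ) : Prop :=
  (b = 0 ∧ c = 0 ∧ (a = 1 ∨ a = -1) ∧ (d = 1 ∨ d = -1)) ∨
    (a = 0 ∧ d = 0 ∧ (b = 1 ∨ b = -1) ∧ (c = 1 ∨ c = -1))

/-- `C` is an allowed copy of Snaky: a signed permutation matrix followed by a translation. -/
def IsCopy (C : Finset Cell) : Prop :=
  ∃ a b c d t₁ t₂ : ℤ, IsSignedPerm a b c d ∧
    C = snaky.image fun p => (a * p.1 + b * p.2 + t₁, c * p.1 + d * p.2 + t₂)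

/-- The cells `M` contain an allowed copy of Snaky. -/
def HasCopy (M : Finset Cell) : Prop := ∃ C, C ⊆ M ∧ IsCopy C

/-- With Maker holding `M`, Breaker holding `B` and Maker to move, Maker can force a win within
`n` moves: either Maker already owns a copy, or Maker has a legal move `x` such that after every
legal answer `y` of Breaker, Maker can force a win within `n - 1` moves. -/
def MakerForces : ℕ → Finset Cell → Finset Cell → Prop
  | 0, M, _ => HasCopy M
  | n + 1, M, B => HasCopy M ∨ ∃ x, x ∉ M ∧ x ∉ B ∧
      ∀ y, y ∉ insert x M → y ∉ B → MakerForces n (insert x M) (insert y B)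

end Vale.Agent.Lib.P062
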