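import Mathlib
import Vale.Agent.Lib.P062.Defs
import Vale.Agent.Lib.P062.Check

/-!
Soundness of the certificate checker for the Snaky game.

A pattern is a pair of bit masks: stones `m` of Maker and a zone `z`.  It is winning, `W m z`, if
Maker to move forces a win against every set of Breaker stones that avoids the zone.
-/

namespace Vale.Agent.Lib.P062

/-- The cell with bit index `i`: the window of side 15 is centered at the origin. -/
def cellOf (i : ℕ) : Cell := (((i % 15 : ℕ) : ℤ) - 7, ((i / 15 : ℕ) : ℤ) - 7)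

theorem cellOf_inj {i j : ℕ} (h : cellOf i = cellOf j) : i = j := by
  simp only [cellOf, Prod.mk.injEq] at h
  omega

/-- The set of cells of a bit mask. -/
def toSet (m : ℕ) : Finset Cell :=
  ((Finset.range 225).filter (fun i => m.testBit i = true)).image cellOf

theorem mem_toSet {m : ℕ} {p : Cell} :
    p ∈ toSet m ↔ ∃ i, i < 225 ∧ m.testBit i = true ∧ cellOf i = p := by
  simp only [toSet, Finset.mem_image, Finset.mem_filter, Finset.mem_range, and_assoc]

theorem cellOf_mem {m i : ℕ} (hi : i < 225) : cellOf i ∈ toSet m ↔ m.testBit i = true := by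
  rw [mem_toSet]
  constructor
  · rintro ⟨j, _, hj, h⟩
    rw [← cellOf_inj h]
    exact hj
  · intro h
    exact ⟨i, hi, h, rfl⟩

theorem lor_bit (m x i : ℕ) :
    (Nat.lor m (Nat.shiftLeft 1 x)).testBit i = (m.testBit i || decide (x = i)) := by
  have h1 : Nat.lor m (Nat.shiftLeft 1 x) = m ||| 2 ^ x := by
    have : Nat.shiftLeft 1 x = 2 ^ x := by
      have := Nat.one_shiftLeft x
      exact this
    rw [this]
    rfl
  rw [h1, Nat.testBit_or, Nat.testBit_two_pow]

theorem toSet_insert {m x : ℕ} (hx : x < 225) :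
    toSet (Nat.lor m (Nat.shiftLeft 1 x)) = insert (cellOf x) (toSet m) := by
  ext p
  simp only [Finset.mem_insert, mem_toSet, lor_bit, Bool.or_eq_true, decide_eq_true_eq]
  constructor
  · rintro ⟨i, hi, h | h, rfl⟩
    · exact Or.inr ⟨i, hi, h, rfl⟩
    · subst h
      exact Or.inl rfl
  · rintro (rfl | ⟨i, hi, h, rfl⟩)
    · exact ⟨x, hx, Or.inr rfl, rfl⟩
    · exact ⟨i, hi, Or.inl h, rfl⟩

theorem MakerForces.mono {n n' : ℕ} (h : n ≤ n') {M B : Finset Cell} (hf : MakerForces n M B) :
    MakerForces n' M B := by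
  induction n' generalizing n M B with
  | zero =>
    obtain rfl : n = 0 := by omega
    exact hf
  | succ n' ih =>
    cases n with
    | zero => exact Or.inl hf
    | succ k =>
      rcases hf with hf | ⟨x, h1, h2, h3⟩
      · exact Or.inl hf
      · exact Or.inr ⟨x, h1, h2, fun y hy hyB => ih (by omega) (h3 y hy hyB)⟩

/-- The Breaker stones `B` avoid the zone `z`. -/
def Free (z : ℕ) (B : Finset Cell) : Prop :=
  ∀ i, i < 225 → z.testBit i = true → cellOf i ∉ B

/-- The pattern with stones `m` and zone `z` is winning for Maker to move. -/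
def W (m z : ℕ) : Prop := ∃ n, ∀ B, Free z B → MakerForces n (toSet m) B

/-- Invariant of the loop over the children of a node: for Breaker stones that avoid `tot`, and a
further Breaker answer `y` that is not a stone of Maker and not in `inter`, Maker wins. -/
def KI (m' tot inter : ℕ) : Prop :=
  ∃ n, ∀ B y, Free tot B → y ∉ toSet m' →
    (∀ i, i < 225 → cellOf i = y → inter.testBit i = false) →
    MakerForces n (toSet m') (insert y B)

theorem KI_first {m' z : ℕ} (h : W m' z) : KI m' z z := by
  obtain ⟨n, hn⟩ := h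
  refine ⟨n, fun B y hB _ hi => hn _ ?_⟩
  intro i hi' hz hmem
  rcases Finset.mem_insert.mp hmem with h1 | h1
  · have := hi i hi' h1
    rw [hz] at this
    exact absurd this (by simp)
  · exact hB i hi' hz h1

theorem land_bit (a b i : ℕ) : (Nat.land a b).testBit i = (a.testBit i && b.testBit i) := by
  have : Nat.land a b = a &&& b := rfl
  rw [this, Nat.testBit_and]

theorem lor_bit' (a b i : ℕ) : (Nat.lor a b).testBit i = (a.testBit i || b.testBit i) := by
  have : Nat.lor a b = a ||| b := rfl
  rw [this, Nat.testBit_or]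

theorem KI_step {m' tot inter z : ℕ} (h : KI m' tot inter) (hz : W m' z) :
    KI m' (Nat.lor tot z) (Nat.land inter z) := by
  obtain ⟨n1, h1⟩ := h
  obtain ⟨n2, h2⟩ := hz
  refine ⟨max n1 n2, fun B y hB hy hi => ?_⟩
  have hB1 : Free tot B := fun i hi' hb => hB i hi' (by rw [lor_bit', hb, Bool.true_or])
  have hB2 : Free z B := fun i hi' hb => hB i hi' (by rw [lor_bit', hb, Bool.or_true])
  by_cases hex : ∃ i, i < 225 ∧ cellOf i = y ∧ z.testBit i = true
  · obtain ⟨i, hi', hc, hb⟩ := hex
    refine MakerForces.mono (le_max_left _ _) (h1 B y hB1 hy ?_)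
    intro j hj hcj
    have : j = i := cellOf_inj (hcj.trans hc.symm)
    subst this
    have := hi j hj hcj
    rw [land_bit, hb, Bool.and_true] at this
    exact this
  · refine MakerForces.mono (le_max_right _ _) (h2 _ ?_)
    intro i hi' hb hmem
    rcases Finset.mem_insert.mp hmem with h3 | h3
    · exact hex ⟨i, hi', h3, hb⟩
    · exact hB2 i hi' hb h3

theorem W_of_KI {m x tot inter : ℕ} (hx : x < 225) (hm : m.testBit x = false)
    (hK : KI (Nat.lor m (Nat.shiftLeft 1 x)) tot inter)
    (hc : Nat.lor inter (Nat.lor m (Nat.shiftLeft 1 x)) = Nat.lor m (Nat.shiftLeft 1 x)) :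
    W m (Nat.lor tot (Nat.shiftLeft 1 x)) := by
  obtain ⟨n, hn⟩ := hK
  refine ⟨n + 1, fun B hB => Or.inr ⟨cellOf x, ?_, ?_, fun y hy hyB => ?_⟩⟩
  · rw [cellOf_mem hx, hm]
    simp
  · refine hB x hx ?_
    rw [lor_bit]
    simp
  · rw [← toSet_insert hx] at hy ⊢
    refine hn B y ?_ hy ?_
    · exact fun i hi hb => hB i hi (by rw [lor_bit', hb, Bool.true_or])
    · intro i hi hci
      by_contra hib
      have hib' : inter.testBit i = true := by simpa using hib
      apply hy
      rw [← hci, cellOf_mem hi, ← hc, lor_bit', hib', Bool.true_or]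

/-- A generic orientation of Snaky placed in the window. -/
theorem copy_gen (a b c d sx sy : ℤ) (hs : IsSignedPerm a b c d) (base w h pos : ℕ)
    (hw : pos % 15 + w ≤ 15) (hh : pos / 15 + h ≤ 15)
    (H : ∀ p ∈ snaky, 0 ≤ a * p.1 + b * p.2 + sx ∧ a * p.1 + b * p.2 + sx < w ∧
      0 ≤ c * p.1 + d * p.2 + sy ∧ c * p.1 + d * p.2 + sy < h ∧
      base.testBit ((a * p.1 + b * p.2 + sx).toNat + 15 * (c * p.1 + d * p.2 + sy).toNat) = true) :
    ∃ C, IsCopy C ∧ ∀ p ∈ C, ∃ i, i < 225 ∧ (Nat.shiftLeft base pos).testBit i = true ∧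
      cellOf i = p := by
  refine ⟨_, ⟨a, b, c, d, sx + ((pos % 15 : ℕ) : ℤ) - 7, sy + ((pos / 15 : ℕ) : ℤ) - 7, hs, rfl⟩, ?_⟩
  intro q hq
  obtain ⟨p, hp, rfl⟩ := Finset.mem_image.mp hq
  obtain ⟨h1, h2, h3, h4, h5⟩ := H p hp
  generalize hu : (a * p.1 + b * p.2 + sx).toNat = u at h5
  generalize hv : (c * p.1 + d * p.2 + sy).toNat = v at h5
  have hu' : a * p.1 + b * p.2 + sx = u := by omega
  have hv' : c * p.1 + d * p.2 + sy = v := by omega
  have huw : u < w := by omega
  have hvh : v < h := by omega
  have hpos : pos = pos % 15 + 15 * (pos / 15) := by omega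
  refine ⟨(u + 15 * v) + pos, by omega, ?_, ?_⟩
  · have : Nat.shiftLeft base pos = base <<< pos := rfl
    rw [this, Nat.testBit_shiftLeft]
    simp only [ge_iff_le, Nat.le_add_left, decide_true, Bool.true_and, Nat.add_sub_cancel]
    exact h5
  · simp only [cellOf, Prod.mk.injEq]
    constructor <;> omega

/-- The mask `cpat o pos` contains a copy of Snaky, when it lies in the window. -/
theorem copy_of_cpat {o pos : ℕ} (ho : o ≤ 7)
    (hw : pos % 15 + bitf dimW (o * 4) 15 ≤ 15) (hh : pos / 15 + bitf dimH (o * 4) 15 ≤ 15) :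
    ∃ C, IsCopy C ∧ ∀ p ∈ C, ∃ i, i < 225 ∧ (cpat o pos).testBit i = true ∧ cellOf i = p := by
  have sp1 : IsSignedPerm 1 0 0 1 := by simp [IsSignedPerm]
  have sp2 : IsSignedPerm 0 1 1 0 := by simp [IsSignedPerm]
  have sp3 : IsSignedPerm (-1) 0 0 1 := by simp [IsSignedPerm]
  have sp4 : IsSignedPerm 0 (-1) 1 0 := by simp [IsSignedPerm]
  have sp5 : IsSignedPerm 1 0 0 (-1) := by simp [IsSignedPerm]
  have sp6 : IsSignedPerm 0 1 (-1) 0 := by simp [IsSignedPerm]
  have sp7 : IsSignedPerm (-1) 0 0 (-1) := by simp [IsSignedPerm]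
  have sp8 : IsSignedPerm 0 (-1) (-1) 0 := by simp [IsSignedPerm]
  interval_cases o
  · exact copy_gen 1 0 0 1 0 0 sp1 _ 5 2 pos hw hh (by decide)
  · exact copy_gen 0 1 1 0 0 0 sp2 _ 2 5 pos hw hh (by decide)
  · exact copy_gen (-1) 0 0 1 4 0 sp3 _ 5 2 pos hw hh (by decide)
  · exact copy_gen 0 (-1) 1 0 1 0 sp4 _ 2 5 pos hw hh (by decide)
  · exact copy_gen 1 0 0 (-1) 0 1 sp5 _ 5 2 pos hw hh (by decide)
  · exact copy_gen 0 1 (-1) 0 0 4 sp6 _ 2 5 pos hw hh (by decide)
  · exact copy_gen (-1) 0 0 (-1) 4 1 sp7 _ 5 2 pos hw hh (by decide)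
  · exact copy_gen 0 (-1) (-1) 0 1 4 sp8 _ 2 5 pos hw hh (by decide)

theorem W_leaf {m o pos x : ℕ} (h : leafOK m o pos x = true) : W m (cpat o pos) := by
  simp only [leafOK] at h
  cases h1 : Nat.ble o 7 <;> simp only [h1, cond_false, cond_true] at h
  · exact absurd h (by simp)
  cases h2 : Nat.ble x 224 <;> simp only [h2, cond_false, cond_true] at h
  · exact absurd h (by simp)
  cases h3 : Nat.ble (Nat.add (Nat.mod pos 15) (bitf dimW (Nat.mul o 4) 15)) 15 <;>
    simp only [h3, cond_false, cond_true] at h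
  · exact absurd h (by simp)
  cases h4 : Nat.ble (Nat.add (Nat.div pos 15) (bitf dimH (Nat.mul o 4) 15)) 15 <;>
    simp only [h4, cond_false, cond_true] at h
  · exact absurd h (by simp)
  have ho : o ≤ 7 := Nat.le_of_ble_eq_true h1
  have hx : x < 225 := by have := Nat.le_of_ble_eq_true h2; omega
  have hw : pos % 15 + bitf dimW (o * 4) 15 ≤ 15 := Nat.le_of_ble_eq_true h3
  have hh : pos / 15 + bitf dimH (o * 4) 15 ≤ 15 := Nat.le_of_ble_eq_true h4
  have hr : Nat.xor (cpat o pos) (Nat.land (cpat o pos) m) = Nat.shiftLeft 1 x :=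
    Nat.eq_of_beq_eq_true h
  have hbit : ∀ i, (cpat o pos).testBit i = true → i = x ∨ m.testBit i = true := by
    intro i hi
    by_cases hm : m.testBit i = true
    · exact Or.inr hm
    · left
      have hm' : m.testBit i = false := by simpa using hm
      have h5 := congrArg (fun t => Nat.testBit t i) hr
      have h6 : Nat.xor (cpat o pos) (Nat.land (cpat o pos) m) =
          cpat o pos ^^^ (cpat o pos &&& m) := rfl
      have h7 : Nat.shiftLeft 1 x = 2 ^ x := Nat.one_shiftLeft x
      simp only [h6, h7, Nat.testBit_xor, Nat.testBit_and, Nat.testBit_two_pow, hi, hm'] at h5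
      simp at h5
      exact h5.symm
  have hxb : (cpat o pos).testBit x = true ∧ m.testBit x = false := by
    have h5 := congrArg (fun t => Nat.testBit t x) hr
    have h6 : Nat.xor (cpat o pos) (Nat.land (cpat o pos) m) =
        cpat o pos ^^^ (cpat o pos &&& m) := rfl
    have h7 : Nat.shiftLeft 1 x = 2 ^ x := Nat.one_shiftLeft x
    simp only [h6, h7, Nat.testBit_xor, Nat.testBit_and, Nat.testBit_two_pow] at h5
    cases h8 : (cpat o pos).testBit x <;> cases h9 : m.testBit x <;> simp [h8, h9] at h5 ⊢
  refine ⟨1, fun B hB => Or.inr ⟨cellOf x, ?_, hB x hx hxb.1, fun y _ _ => ?_⟩⟩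
  · rw [cellOf_mem hx, hxb.2]
    simp
  · show HasCopy _
    obtain ⟨C, hC, hsub⟩ := copy_of_cpat ho hw hh
    refine ⟨C, fun p hp => ?_, hC⟩
    obtain ⟨i, hi, hib, rfl⟩ := hsub p hp
    rcases hbit i hib with rfl | hm
    · exact Finset.mem_insert_self _ _
    · exact Finset.mem_insert_of_mem ((cellOf_mem hi).mpr hm)

/-- Soundness of the loop over children. -/
theorem kids_sound (rc : Nat → Nat → List Nat → K → Bool)
    (hrc : ∀ m b r k, rc m b r k = true → ∃ z b' r', W m z ∧ k z b' r' = true)
    {m x : ℕ} (hx : x < 225) (hm : m.testBit x = false) (k : K) :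
    ∀ f tot inter buf rest, KI (Nat.lor m (Nat.shiftLeft 1 x)) tot inter →
      kids rc (Nat.lor m (Nat.shiftLeft 1 x)) x k f tot inter buf rest = true →
      ∃ z b r, W m z ∧ k z b r = true := by
  intro f
  induction f with
  | zero =>
    intro tot inter buf rest _ h
    exact absurd h (by simp [kids])
  | succ f ih =>
    intro tot inter buf rest hK h
    have hend : ∀ b r, kidsEnd (Nat.lor m (Nat.shiftLeft 1 x)) x k tot inter b r = true →
        ∃ z b r, W m z ∧ k z b r = true := by
      intro b r he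
      simp only [kidsEnd] at he
      cases h1 : Nat.beq (Nat.lor inter (Nat.lor m (Nat.shiftLeft 1 x)))
          (Nat.lor m (Nat.shiftLeft 1 x)) <;> simp only [h1, cond_false, cond_true] at he
      · exact absurd he (by simp)
      · exact ⟨_, b, r, W_of_KI hx hm hK (Nat.eq_of_beq_eq_true h1), he⟩
    have hrec : ∀ b r, rc (Nat.lor m (Nat.shiftLeft 1 x)) b r
        (fun z b r => kids rc (Nat.lor m (Nat.shiftLeft 1 x)) x k f
          (Nat.lor tot z) (Nat.land inter z) b r) = true →
        ∃ z b r, W m z ∧ k z b r = true := by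
      intro b r he
      obtain ⟨z, b', r', hz, hc⟩ := hrc _ _ _ _ he
      exact ih _ _ _ _ (KI_step hK hz) hc
    change cond (Nat.beq buf 1)
       (cond (Nat.beq (Nat.land (hd rest) 1) 0)
         (kidsEnd (Nat.lor m (Nat.shiftLeft 1 x)) x k tot inter (Nat.shiftRight (hd rest) 1) (tl rest))
         (rc (Nat.lor m (Nat.shiftLeft 1 x)) (Nat.shiftRight (hd rest) 1) (tl rest)
           (fun z b r => kids rc (Nat.lor m (Nat.shiftLeft 1 x)) x k f
             (Nat.lor tot z) (Nat.land inter z) b r)))
       (cond (Nat.beq (Nat.land buf 1) 0)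
         (kidsEnd (Nat.lor m (Nat.shiftLeft 1 x)) x k tot inter (Nat.shiftRight buf 1) rest)
         (rc (Nat.lor m (Nat.shiftLeft 1 x)) (Nat.shiftRight buf 1) rest
           (fun z b r => kids rc (Nat.lor m (Nat.shiftLeft 1 x)) x k f
             (Nat.lor tot z) (Nat.land inter z) b r))) = true at h
    cases h1 : Nat.beq buf 1 <;> simp only [h1, cond_false, cond_true] at h
    · cases h2 : Nat.beq (Nat.land buf 1) 0 <;> simp only [h2, cond_false, cond_true] at h
      · exact hrec _ _ h
      · exact hend _ _ h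
    · cases h2 : Nat.beq (Nat.land (hd rest) 1) 0 <;> simp only [h2, cond_false, cond_true] at h
      · exact hrec _ _ h
      · exact hend _ _ h

/-- Soundness of the checker. -/
theorem chk_sound : ∀ f m buf rest k, chk f m buf rest k = true →
    ∃ z b r, W m z ∧ k z b r = true := by
  intro f
  induction f with
  | zero =>
    intro m buf rest k h
    exact absurd h (by simp [chk])
  | succ f ih =>
    intro m buf rest k h
    change cond (Nat.beq buf 1) (chk f m (hd rest) (tl rest) k)
      (cond (Nat.beq (Nat.land buf 1) 0)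
        (cond (leafOK m (bitf buf 1 7) (bitf buf 4 255) (bitf buf 12 255))
           (k (cpat (bitf buf 1 7) (bitf buf 4 255)) (Nat.shiftRight buf 20) rest) false)
        (cond (Nat.ble 225 (bitf buf 1 255)) false
          (cond (Nat.testBit m (bitf buf 1 255)) false
            (chk f (Nat.lor m (Nat.shiftLeft 1 (bitf buf 1 255))) (Nat.shiftRight buf 9) rest
              (fun z b r => kids (chk f) (Nat.lor m (Nat.shiftLeft 1 (bitf buf 1 255)))
                (bitf buf 1 255) k 255 z z b r))))) = true at h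
    cases h1 : Nat.beq buf 1 <;> simp only [h1, cond_false, cond_true] at h
    · cases h2 : Nat.beq (Nat.land buf 1) 0 <;> simp only [h2, cond_false, cond_true] at h
      · cases h3 : Nat.ble 225 (bitf buf 1 255) <;> simp only [h3, cond_false, cond_true] at h
        · cases h4 : Nat.testBit m (bitf buf 1 255) <;> simp only [h4, cond_false, cond_true] at h
          · have hx : bitf buf 1 255 < 225 := by
              by_contra hcon
              have := Nat.le_of_not_lt hcon
              have h5 : Nat.ble 225 (bitf buf 1 255) = true := Nat.ble_eq_true_of_le this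
              rw [h3] at h5
              exact absurd h5 (by simp)
            obtain ⟨z, b', r', hz, hc⟩ := ih _ _ _ _ h
            exact kids_sound (chk f) ih hx h4 k 255 _ _ _ _ (KI_first hz) hc
          · exact absurd h (by simp)
        · exact absurd h (by simp)
      · cases h3 : leafOK m (bitf buf 1 7) (bitf buf 4 255) (bitf buf 12 255) <;>
          simp only [h3, cond_false, cond_true] at h
        · exact absurd h (by simp)
        · exact ⟨_, _, _, W_leaf h3, h⟩
    · exact ih _ _ _ _ h

/-- What a certificate proves, when the continuation compares the zone with a given value. -/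
theorem W_of_chk {f m buf zz : ℕ} {rs : List Nat}
    (h : chk f m buf rs (fun z _ _ => Nat.beq z zz) = true) : W m zz := by
  obtain ⟨z, _, _, hz, hc⟩ := chk_sound _ _ _ _ _ h
  have : z = zz := Nat.eq_of_beq_eq_true hc
  rwa [this] at hz

end Vale.Agent.Lib.P062
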