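import Mathlib
import Vale.Agent.Lib.P062.Sound
import Vale.Agent.Lib.P062.Dag

/-!
Soundness of the second checker for Snaky certificates.

A claim is a pair of bit masks `(m, z)`; only the bits from 32 on have a meaning, they describe cells
of a window of side 32.  The claim is valid, `WR m z`, if Maker to move forces a win in every position
where Maker owns the cells of `m`, Breaker owns no cell of `z` and the two players hold disjoint sets
of cells.
-/

namespace Vale.Agent.Lib.P062

/-- The cell with code `c`: the origin has the code `560`. -/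
def cellW (c : ℕ) : Cell := (((c % 32 : ℕ) : ℤ) - 16, ((c / 32 : ℕ) : ℤ) - 17)

theorem cellW_inj {i j : ℕ} (h : cellW i = cellW j) : i = j := by
  simp only [cellW, Prod.mk.injEq] at h
  omega

/-- Validity of the claim `(m, z)`. -/
def WR (m z : ℕ) : Prop := ∃ n, ∀ M B : Finset Cell,
  (∀ c, 32 ≤ c → m.testBit c = true → cellW c ∈ M) →
  (∀ c, 32 ≤ c → z.testBit c = true → cellW c ∉ B) →
  (∀ p ∈ M, p ∉ B) → MakerForces n M B

/-- Outside any finite set there is a cell that has no code. -/
theorem exists_fresh (S : Finset Cell) : ∃ y : Cell, y ∉ S ∧ ∀ c, cellW c ≠ y := by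
  obtain ⟨t, ht⟩ := Infinite.exists_notMem_finset (S.image Prod.fst ∪ Finset.Icc (-16 : ℤ) 15)
  refine ⟨(t, 0), ?_, ?_⟩
  · intro h
    apply ht
    exact Finset.mem_union_left _ (Finset.mem_image_of_mem Prod.fst h)
  · intro c hc
    apply ht
    apply Finset.mem_union_right
    rw [Finset.mem_Icc]
    have : ((c % 32 : ℕ) : ℤ) - 16 = t := congrArg Prod.fst hc
    omega

/-- Fewer stones of Breaker do not hurt Maker. -/
theorem MakerForces.anti {n : ℕ} {M B B' : Finset Cell} (h : MakerForces n M B') (hs : B ⊆ B') :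
    MakerForces n M B := by
  induction n generalizing M B B' with
  | zero => exact h
  | succ n ih =>
    rcases h with h | ⟨x, h1, h2, h3⟩
    · exact Or.inl h
    · refine Or.inr ⟨x, h1, fun hb => h2 (hs hb), fun y hy hyB => ?_⟩
      by_cases hyB' : y ∈ B'
      · obtain ⟨y0, hy0, _⟩ := exists_fresh (insert x M ∪ B')
        have h4 := h3 y0 (fun h => hy0 (Finset.mem_union_left _ h))
          (fun h => hy0 (Finset.mem_union_right _ h))
        refine ih h4 ?_
        intro p hp
        rcases Finset.mem_insert.mp hp with rfl | hp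
        · exact Finset.mem_insert_of_mem hyB'
        · exact Finset.mem_insert_of_mem (hs hp)
      · exact ih (h3 y hy hyB') (Finset.insert_subset_insert _ hs)

/-- A generic orientation of Snaky placed in the window. -/
theorem copy_gen32 (a b c d sx sy : ℤ) (hs : IsSignedPerm a b c d) (base w h pos : ℕ)
    (H : ∀ p ∈ snaky, 0 ≤ a * p.1 + b * p.2 + sx ∧ a * p.1 + b * p.2 + sx < w ∧
      0 ≤ c * p.1 + d * p.2 + sy ∧ c * p.1 + d * p.2 + sy < h ∧
      base.testBit ((a * p.1 + b * p.2 + sx).toNat + 32 * (c * p.1 + d * p.2 + sy).toNat) = true)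
    (hw : pos % 32 + w ≤ 32) (hp32 : 32 ≤ pos) :
    ∃ C, IsCopy C ∧ ∀ p ∈ C, ∃ i, 32 ≤ i ∧ (Nat.shiftLeft base pos).testBit i = true ∧
      cellW i = p := by
  refine ⟨_, ⟨a, b, c, d, sx + ((pos % 32 : ℕ) : ℤ) - 16, sy + ((pos / 32 : ℕ) : ℤ) - 17, hs, rfl⟩,
    ?_⟩
  intro q hq
  obtain ⟨p, hp, rfl⟩ := Finset.mem_image.mp hq
  obtain ⟨h1, h2, h3, h4, h5⟩ := H p hp
  generalize hu : (a * p.1 + b * p.2 + sx).toNat = u at h5
  generalize hv : (c * p.1 + d * p.2 + sy).toNat = v at h5
  have hu' : a * p.1 + b * p.2 + sx = u := by omega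
  have hv' : c * p.1 + d * p.2 + sy = v := by omega
  have huw : u < w := by omega
  have hpos : pos = pos % 32 + 32 * (pos / 32) := by omega
  refine ⟨(u + 32 * v) + pos, by omega, ?_, ?_⟩
  · have : Nat.shiftLeft base pos = base <<< pos := rfl
    rw [this, Nat.testBit_shiftLeft]
    simp only [ge_iff_le, Nat.le_add_left, decide_true, Bool.true_and, Nat.add_sub_cancel]
    exact h5
  · simp only [cellW, Prod.mk.injEq]
    constructor <;> omega

/-- The mask `cpat32 o pos` contains a copy of Snaky, when it lies in the window. -/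
theorem copy_of_cpat32 {o pos : ℕ} (ho : o ≤ 7) (hw : pos % 32 + bitf32 dimW32 (o * 4) 15 ≤ 32)
    (hp32 : 32 ≤ pos) :
    ∃ C, IsCopy C ∧ ∀ p ∈ C, ∃ i, 32 ≤ i ∧ (cpat32 o pos).testBit i = true ∧ cellW i = p := by
  have sp1 : IsSignedPerm 1 0 0 1 := by simp [IsSignedPerm]
  have sp2 : IsSignedPerm 0 1 1 0 := by simp [IsSignedPerm]
  have sp3 : IsSignedPerm (-1) 0 0 1 := by simp [IsSignedPerm]
  have sp4 : IsSignedPerm 0 (-1) 1 0 := by simp [IsSignedPerm]
  have sp5 : IsSignedPerm 1 0 0 (-1) := by simp [IsSignedPerm]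
  have sp6 : IsSignedPerm 0 1 (-1) 0 := by simp [IsSignedPerm]
  have sp7 : IsSignedPerm (-1) 0 0 (-1) := by simp [IsSignedPerm]
  have sp8 : IsSignedPerm 0 (-1) (-1) 0 := by simp [IsSignedPerm]
  interval_cases o
  · exact copy_gen32 1 0 0 1 0 0 sp1 _ 5 2 pos (by decide +kernel) hw hp32
  · exact copy_gen32 0 1 1 0 0 0 sp2 _ 2 5 pos (by decide +kernel) hw hp32
  · exact copy_gen32 (-1) 0 0 1 4 0 sp3 _ 5 2 pos (by decide +kernel) hw hp32
  · exact copy_gen32 0 (-1) 1 0 1 0 sp4 _ 2 5 pos (by decide +kernel) hw hp32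
  · exact copy_gen32 1 0 0 (-1) 0 1 sp5 _ 5 2 pos (by decide +kernel) hw hp32
  · exact copy_gen32 0 1 (-1) 0 0 4 sp6 _ 2 5 pos (by decide +kernel) hw hp32
  · exact copy_gen32 (-1) 0 0 (-1) 4 1 sp7 _ 5 2 pos (by decide +kernel) hw hp32
  · exact copy_gen32 0 (-1) (-1) 0 1 4 sp8 _ 2 5 pos (by decide +kernel) hw hp32

/-- The leaf claim: the cells of a copy of Snaky win at once. -/
theorem WR_leaf {o pos : ℕ} (h : leafOK32 o pos = true) : WR (cpat32 o pos) 0 := by
  simp only [leafOK32, Bool.and_eq_true] at h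
  obtain ⟨h0, h1, h3⟩ := h
  have hp32 : 32 ≤ pos := Nat.le_of_ble_eq_true h0
  have ho : o ≤ 7 := Nat.le_of_ble_eq_true h1
  have hw : pos % 32 + bitf32 dimW32 (o * 4) 15 ≤ 32 := Nat.le_of_ble_eq_true h3
  obtain ⟨C, hC, hsub⟩ := copy_of_cpat32 ho hw hp32
  refine ⟨0, fun M B hM _ _ => ⟨C, fun p hp => ?_, hC⟩⟩
  obtain ⟨i, hi32, hi, rfl⟩ := hsub p hp
  exact hM i hi32 hi

/-- The claim for an absent key. -/
theorem WR_default : WR (cpat32 0 32) 0 := WR_leaf (by decide)

/-- The invariant of the loop over the children of a record: the position after the move of Maker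
and a reply `y` of Breaker outside `inter`. -/
def KR (mu zu inter : ℕ) : Prop := ∃ n, ∀ (M B : Finset Cell) (y : Cell),
  (∀ c, 32 ≤ c → mu.testBit c = true → cellW c ∈ M) →
  (∀ c, 32 ≤ c → zu.testBit c = true → cellW c ∉ B) →
  (∀ p ∈ M, p ∉ B) → y ∉ M → y ∉ B → (∀ c, 32 ≤ c → inter.testBit c = true → cellW c ≠ y) →
  MakerForces n M (insert y B)

theorem KR_first {m z : ℕ} (h : WR m z) : KR m z z := by
  obtain ⟨n, hn⟩ := h
  refine ⟨n, fun M B y hM hz hd hy1 hy2 hi => hn M _ hM ?_ ?_⟩
  · intro c hc32 hc hmem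
    rcases Finset.mem_insert.mp hmem with h1 | h1
    · exact hi c hc32 hc h1
    · exact hz c hc32 hc h1
  · intro p hp hmem
    rcases Finset.mem_insert.mp hmem with h1 | h1
    · exact hy1 (h1 ▸ hp)
    · exact hd p hp h1

theorem KR_step {mu zu inter m z : ℕ} (h : KR mu zu inter) (hz : WR m z) :
    KR (Nat.lor mu m) (Nat.lor zu z) (Nat.land inter z) := by
  obtain ⟨n1, h1⟩ := h
  obtain ⟨n2, h2⟩ := hz
  refine ⟨max n1 n2, fun M B y hM hZ hd hy1 hy2 hi => ?_⟩
  have hM1 : ∀ c, 32 ≤ c → mu.testBit c = true → cellW c ∈ M :=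
    fun c hc32 hc => hM c hc32 (by rw [lor_bit', hc, Bool.true_or])
  have hM2 : ∀ c, 32 ≤ c → m.testBit c = true → cellW c ∈ M :=
    fun c hc32 hc => hM c hc32 (by rw [lor_bit', hc, Bool.or_true])
  have hZ1 : ∀ c, 32 ≤ c → zu.testBit c = true → cellW c ∉ B :=
    fun c hc32 hc => hZ c hc32 (by rw [lor_bit', hc, Bool.true_or])
  have hZ2 : ∀ c, 32 ≤ c → z.testBit c = true → cellW c ∉ B :=
    fun c hc32 hc => hZ c hc32 (by rw [lor_bit', hc, Bool.or_true])
  by_cases hex : ∃ c, 32 ≤ c ∧ z.testBit c = true ∧ cellW c = y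
  · obtain ⟨c0, hc32, hc0, hc1⟩ := hex
    refine MakerForces.mono (le_max_left _ _) (h1 M B y hM1 hZ1 hd hy1 hy2 ?_)
    intro c hc32' hc hcy
    have : c = c0 := cellW_inj (hcy.trans hc1.symm)
    subst this
    exact hi c hc32' (by rw [land_bit, hc, hc0, Bool.and_true]) hcy
  · refine MakerForces.mono (le_max_right _ _) (h2 M _ hM2 ?_ ?_)
    · intro c hc32 hc hmem
      rcases Finset.mem_insert.mp hmem with h3 | h3
      · exact hex ⟨c, hc32, hc, h3⟩
      · exact hZ2 c hc32 hc h3
    · intro p hp hmem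
      rcases Finset.mem_insert.mp hmem with h3 | h3
      · exact hy1 (h3 ▸ hp)
      · exact hd p hp h3

theorem mkM_bit (mu inter x c : ℕ) :
    (mkM mu inter x).testBit c = ((mu.testBit c || inter.testBit c) && !decide (x = c)) := by
  have h1 : mkM mu inter x = (mu ||| inter) ^^^ ((mu ||| inter) &&& 2 ^ x) := by
    have h7 : Nat.shiftLeft 1 x = 2 ^ x := Nat.one_shiftLeft x
    simp only [mkM, h7]
    rfl
  rw [h1, Nat.testBit_xor, Nat.testBit_and, Nat.testBit_or, Nat.testBit_two_pow]
  cases mu.testBit c <;> cases inter.testBit c <;> cases decide (x = c) <;> rfl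

theorem mkZ_bit (zu m x c : ℕ) :
    (mkZ zu m x).testBit c = ((zu.testBit c || decide (x = c)) && !m.testBit c) := by
  have h1 : mkZ zu m x = (zu ||| 2 ^ x) ^^^ ((zu ||| 2 ^ x) &&& m) := by
    have h7 : Nat.shiftLeft 1 x = 2 ^ x := Nat.one_shiftLeft x
    simp only [mkZ, h7]
    rfl
  rw [h1, Nat.testBit_xor, Nat.testBit_and, Nat.testBit_or, Nat.testBit_two_pow]
  cases zu.testBit c <;> cases m.testBit c <;> cases decide (x = c) <;> rfl

/-- The hash in the lowest bits does not change the bits from 32 on. -/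
theorem retag_bit (m c : ℕ) (hc : 32 ≤ c) : (retag m).testBit c = m.testBit c := by
  have h1 : retag m = m ^^^ (Nat.shiftRight m 32 % 4294967291) := rfl
  have h2 : (Nat.shiftRight m 32 % 4294967291).testBit c = false := by
    apply Nat.testBit_lt_two_pow
    calc Nat.shiftRight m 32 % 4294967291 < 2 ^ 32 := by
          have := Nat.mod_lt (Nat.shiftRight m 32) (show 0 < 4294967291 by norm_num)
          omega
      _ ≤ 2 ^ c := Nat.pow_le_pow_right (by norm_num) hc
  rw [h1, Nat.testBit_xor, h2, Bool.xor_false]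

/-- The claim produced by a record is valid. -/
theorem WR_of_KR {mu zu inter : ℕ} (x : ℕ) (hx : 32 ≤ x) (h : KR mu zu inter) :
    WR (retag (mkM mu inter x)) (retag (mkZ zu (retag (mkM mu inter x)) x)) := by
  obtain ⟨n, hn⟩ := h
  refine ⟨n + 1, fun M B hM hZ hd => ?_⟩
  -- the cells of the union are stones of Maker or the move
  have hU : ∀ c, 32 ≤ c → (mu.testBit c = true ∨ inter.testBit c = true) →
      c = x ∨ cellW c ∈ M := by
    intro c hc32 hc
    by_cases hcx : c = x
    · exact Or.inl hcx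
    · refine Or.inr (hM c hc32 ?_)
      rw [retag_bit _ _ hc32, mkM_bit]
      have hne : decide (x = c) = false := by simp [Ne.symm hcx]
      rw [hne]
      rcases hc with hc | hc <;> simp [hc]
  -- the cells of the zones are zone cells of the claim or stones of Maker
  have hZu : ∀ c, 32 ≤ c → zu.testBit c = true → cellW c ∉ B := by
    intro c hc32 hc
    by_cases hmc : (retag (mkM mu inter x)).testBit c = true
    · exact hd _ (hM c hc32 hmc)
    · refine hZ c hc32 ?_
      rw [retag_bit _ _ hc32, mkZ_bit, hc]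
      simp [hmc]
  have hxB : cellW x ∉ B := by
    refine hZ x hx ?_
    rw [retag_bit _ _ hx, mkZ_bit, retag_bit _ _ hx, mkM_bit]
    simp
  by_cases hxM : cellW x ∈ M
  · -- the move is already a stone of Maker: Breaker answers somewhere far away
    obtain ⟨y, hy, hyc⟩ := exists_fresh (M ∪ B)
    have hmu : ∀ c, 32 ≤ c → mu.testBit c = true → cellW c ∈ M := by
      intro c hc32 hc
      rcases hU c hc32 (Or.inl hc) with rfl | h1
      · exact hxM
      · exact h1
    have := hn M B y hmu hZu hd (fun h => hy (Finset.mem_union_left _ h))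
      (fun h => hy (Finset.mem_union_right _ h)) (fun c _ _ => hyc c)
    exact MakerForces.mono (Nat.le_succ n) (MakerForces.anti this (Finset.subset_insert _ _))
  · refine Or.inr ⟨cellW x, hxM, hxB, fun y hy hyB => ?_⟩
    refine hn _ B y ?_ hZu ?_ hy hyB ?_
    · intro c hc32 hc
      rcases hU c hc32 (Or.inl hc) with rfl | h1
      · exact Finset.mem_insert_self _ _
      · exact Finset.mem_insert_of_mem h1
    · intro p hp
      rcases Finset.mem_insert.mp hp with rfl | h1
      · exact hxB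
      · exact hd p h1
    · intro c hc32 hc hcy
      apply hy
      rw [← hcy]
      rcases hU c hc32 (Or.inr hc) with rfl | h1
      · exact Finset.mem_insert_self _ _
      · exact Finset.mem_insert_of_mem h1

/-- Every claim stored in a table is valid. -/
def TGood : Tb → Prop
  | Tb.nil => True
  | Tb.leaf m z => WR m z
  | Tb.node l r => TGood l ∧ TGood r

theorem TGood.lft {t : Tb} (h : TGood t) : TGood (Tb.lft t) := by
  cases t with
  | nil => trivial
  | leaf m z => trivial
  | node l r => exact h.1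

theorem TGood.rgt {t : Tb} (h : TGood t) : TGood (Tb.rgt t) := by
  cases t with
  | nil => trivial
  | leaf m z => trivial
  | node l r => exact h.2

theorem tinsK_sound {m z : ℕ} (hw : WR m z) :
    ∀ (d : ℕ) (t : Tb) (i : ℕ) (k : Tb → Bool), TGood t → tinsK d t i m z k = true →
      ∃ t', TGood t' ∧ k t' = true := by
  intro d
  induction d with
  | zero => intro t i k _ h; exact ⟨Tb.leaf m z, hw, h⟩
  | succ d ih =>
    intro t i k ht h
    change splitK t (fun l r => cond (Nat.beq (Nat.land i 1) 0)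
      (tinsK d l (Nat.shiftRight i 1) m z (fun l' => k (Tb.node l' r)))
      (tinsK d r (Nat.shiftRight i 1) m z (fun r' => k (Tb.node l r')))) = true at h
    have key : cond (Nat.beq (Nat.land i 1) 0)
      (tinsK d (Tb.lft t) (Nat.shiftRight i 1) m z (fun l' => k (Tb.node l' (Tb.rgt t))))
      (tinsK d (Tb.rgt t) (Nat.shiftRight i 1) m z (fun r' => k (Tb.node (Tb.lft t) r'))) = true := by
      cases t <;> exact h
    cases h1 : Nat.beq (Nat.land i 1) 0 <;> simp only [h1, cond_false, cond_true] at key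
    · obtain ⟨t', h2, h3⟩ := ih _ _ _ ht.rgt key
      exact ⟨Tb.node (Tb.lft t) t', ⟨ht.lft, h2⟩, h3⟩
    · obtain ⟨t', h2, h3⟩ := ih _ _ _ ht.lft key
      exact ⟨Tb.node t' (Tb.rgt t), ⟨h2, ht.rgt⟩, h3⟩

theorem forceN_eq (n : ℕ) (k : ℕ → Bool) : forceN n k = k n := by
  cases n <;> rfl

theorem popK_eq (l : List ℕ) (k : ℕ → List ℕ → Bool) : popK l k = k (hd32 l) (tl32 l) := by
  cases l <;> rfl

theorem tget_sound : ∀ t : Tb, TGood t → ∀ (i : ℕ) (k : ℕ → ℕ → Bool), tget t i k = true →
    ∃ m z, WR m z ∧ k m z = true := by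
  intro t
  induction t with
  | nil => intro _ i k h; exact ⟨_, _, WR_default, h⟩
  | leaf m z => intro ht i k h; exact ⟨m, z, ht, h⟩
  | node l r il ir =>
    intro ht i k h
    change cond (Nat.beq (Nat.land i 1) 0) (tget l (Nat.shiftRight i 1) k)
      (tget r (Nat.shiftRight i 1) k) = true at h
    cases h1 : Nat.beq (Nat.land i 1) 0 <;> simp only [h1, cond_false, cond_true] at h
    · exact ir ht.2 _ _ h
    · exact il ht.1 _ _ h

/-! ### Symmetries of the grid -/

/-- a coordinate after a reflection flag and a shift, in the coordinates of the window -/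
def auxT (r : Bool) (d : ℕ) (u : ℤ) : ℤ := cond r ((d : ℤ) - u) (u + (d : ℤ) - 32)

/-- the inverse of `auxT` -/
def auxI (r : Bool) (d : ℕ) (u : ℤ) : ℤ := cond r ((d : ℤ) - u) (u - (d : ℤ) + 32)

/-- a symmetry of the grid: optional swap of the coordinates, reflections and a shift -/
def tauB (sw r1 r2 : Bool) (dx dy : ℕ) (p : Cell) : Cell :=
  (auxT r1 dx (cond sw (p.2 + 17) (p.1 + 16)) - 16, auxT r2 dy (cond sw (p.1 + 16) (p.2 + 17)) - 17)

/-- the inverse of `tauB` -/
def tauI (sw r1 r2 : Bool) (dx dy : ℕ) (q : Cell) : Cell :=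
  cond sw (auxI r2 dy (q.2 + 17) - 16, auxI r1 dx (q.1 + 16) - 17)
    (auxI r1 dx (q.1 + 16) - 16, auxI r2 dy (q.2 + 17) - 17)

theorem tauB_tauI (sw r1 r2 : Bool) (dx dy : ℕ) (q : Cell) :
    tauB sw r1 r2 dx dy (tauI sw r1 r2 dx dy q) = q := by
  obtain ⟨q1, q2⟩ := q
  cases sw <;> cases r1 <;> cases r2 <;> simp only [tauB, tauI, auxT, auxI, cond_true, cond_false] <;>
    (apply Prod.ext <;> simp only <;> ring)

theorem tauI_tauB (sw r1 r2 : Bool) (dx dy : ℕ) (p : Cell) :
    tauI sw r1 r2 dx dy (tauB sw r1 r2 dx dy p) = p := by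
  obtain ⟨p1, p2⟩ := p
  cases sw <;> cases r1 <;> cases r2 <;> simp only [tauB, tauI, auxT, auxI, cond_true, cond_false] <;>
    (apply Prod.ext <;> simp only <;> ring)

theorem tauB_aff (sw r1 r2 : Bool) (dx dy : ℕ) : ∃ a b c d t₁ t₂ : ℤ, IsSignedPerm a b c d ∧
    ∀ p : Cell, tauB sw r1 r2 dx dy p = (a * p.1 + b * p.2 + t₁, c * p.1 + d * p.2 + t₂) := by
  cases sw <;> cases r1 <;> cases r2
  · exact ⟨1, 0, 0, 1, (dx : ℤ) - 32, (dy : ℤ) - 32, by simp [IsSignedPerm], fun p => by
      simp only [tauB, auxT, cond_false, cond_true]; apply Prod.ext <;> simp only <;> ring⟩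
  · exact ⟨1, 0, 0, -1, (dx : ℤ) - 32, (dy : ℤ) - 34, by simp [IsSignedPerm], fun p => by
      simp only [tauB, auxT, cond_false, cond_true]; apply Prod.ext <;> simp only <;> ring⟩
  · exact ⟨-1, 0, 0, 1, (dx : ℤ) - 32, (dy : ℤ) - 32, by simp [IsSignedPerm], fun p => by
      simp only [tauB, auxT, cond_false, cond_true]; apply Prod.ext <;> simp only <;> ring⟩
  · exact ⟨-1, 0, 0, -1, (dx : ℤ) - 32, (dy : ℤ) - 34, by simp [IsSignedPerm], fun p => by
      simp only [tauB, auxT, cond_false, cond_true]; apply Prod.ext <;> simp only <;> ring⟩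
  · exact ⟨0, 1, 1, 0, (dx : ℤ) - 31, (dy : ℤ) - 33, by simp [IsSignedPerm], fun p => by
      simp only [tauB, auxT, cond_false, cond_true]; apply Prod.ext <;> simp only <;> ring⟩
  · exact ⟨0, 1, -1, 0, (dx : ℤ) - 31, (dy : ℤ) - 33, by simp [IsSignedPerm], fun p => by
      simp only [tauB, auxT, cond_false, cond_true]; apply Prod.ext <;> simp only <;> ring⟩
  · exact ⟨0, -1, 1, 0, (dx : ℤ) - 33, (dy : ℤ) - 33, by simp [IsSignedPerm], fun p => by
      simp only [tauB, auxT, cond_false, cond_true]; apply Prod.ext <;> simp only <;> ring⟩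
  · exact ⟨0, -1, -1, 0, (dx : ℤ) - 33, (dy : ℤ) - 33, by simp [IsSignedPerm], fun p => by
      simp only [tauB, auxT, cond_false, cond_true]; apply Prod.ext <;> simp only <;> ring⟩

theorem signedPerm_mul {a b c d a' b' c' d' : ℤ} (h : IsSignedPerm a b c d)
    (h' : IsSignedPerm a' b' c' d') :
    IsSignedPerm (a * a' + b * c') (a * b' + b * d') (c * a' + d * c') (c * b' + d * d') := by
  rcases h with ⟨rfl, rfl, ha, hd⟩ | ⟨rfl, rfl, hb, hc⟩ <;>
    rcases h' with ⟨rfl, rfl, ha', hd'⟩ | ⟨rfl, rfl, hb', hc'⟩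
  · left
    refine ⟨by ring, by ring, ?_, ?_⟩
    · rcases ha with rfl | rfl <;> rcases ha' with rfl | rfl <;> simp
    · rcases hd with rfl | rfl <;> rcases hd' with rfl | rfl <;> simp
  · right
    refine ⟨by ring, by ring, ?_, ?_⟩
    · rcases ha with rfl | rfl <;> rcases hb' with rfl | rfl <;> simp
    · rcases hd with rfl | rfl <;> rcases hc' with rfl | rfl <;> simp
  · right
    refine ⟨by ring, by ring, ?_, ?_⟩
    · rcases hb with rfl | rfl <;> rcases hd' with rfl | rfl <;> simp
    · rcases hc with rfl | rfl <;> rcases ha' with rfl | rfl <;> simp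
  · left
    refine ⟨by ring, by ring, ?_, ?_⟩
    · rcases hb with rfl | rfl <;> rcases hc' with rfl | rfl <;> simp
    · rcases hc with rfl | rfl <;> rcases hb' with rfl | rfl <;> simp

theorem isCopy_tauB (sw r1 r2 : Bool) (dx dy : ℕ) {C : Finset Cell} (hC : IsCopy C) :
    IsCopy (C.image (tauB sw r1 r2 dx dy)) := by
  obtain ⟨a, b, c, d, t₁, t₂, hs, hf⟩ := tauB_aff sw r1 r2 dx dy
  obtain ⟨a', b', c', d', u₁, u₂, hs', rfl⟩ := hC
  refine ⟨a * a' + b * c', a * b' + b * d', c * a' + d * c', c * b' + d * d',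
    a * u₁ + b * u₂ + t₁, c * u₁ + d * u₂ + t₂, signedPerm_mul hs hs', ?_⟩
  rw [Finset.image_image]
  refine Finset.image_congr ?_
  intro p _
  simp only [Function.comp, hf, Prod.mk.injEq]
  constructor <;> ring

/-- The game is invariant under the symmetries of the grid. -/
theorem forces_tauB (sw r1 r2 : Bool) (dx dy : ℕ) {n : ℕ} {M B : Finset Cell}
    (h : MakerForces n M B) :
    MakerForces n (M.image (tauB sw r1 r2 dx dy)) (B.image (tauB sw r1 r2 dx dy)) := by
  have hinj : Function.Injective (tauB sw r1 r2 dx dy) := fun p q hpq => by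
    have := congrArg (tauI sw r1 r2 dx dy) hpq
    rwa [tauI_tauB, tauI_tauB] at this
  have hcopy : ∀ {M : Finset Cell}, HasCopy M → HasCopy (M.image (tauB sw r1 r2 dx dy)) := by
    intro M hM
    obtain ⟨C, hC, hc⟩ := hM
    exact ⟨_, Finset.image_subset_image hC, isCopy_tauB sw r1 r2 dx dy hc⟩
  induction n generalizing M B with
  | zero => exact hcopy h
  | succ n ih =>
    rcases h with h | ⟨x, hx1, hx2, hx3⟩
    · exact Or.inl (hcopy h)
    · refine Or.inr ⟨tauB sw r1 r2 dx dy x, ?_, ?_, fun y hy hyB => ?_⟩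
      · rw [Finset.mem_image]
        rintro ⟨q, hq, hqx⟩
        rw [hinj hqx] at hq
        exact hx1 hq
      · rw [Finset.mem_image]
        rintro ⟨q, hq, hqx⟩
        rw [hinj hqx] at hq
        exact hx2 hq
      · have hy' : tauI sw r1 r2 dx dy y ∉ insert x M := by
          intro hmem
          apply hy
          have := Finset.mem_image_of_mem (tauB sw r1 r2 dx dy) hmem
          rw [tauB_tauI, Finset.image_insert] at this
          exact this
        have hyB' : tauI sw r1 r2 dx dy y ∉ B := by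
          intro hmem
          apply hyB
          have := Finset.mem_image_of_mem (tauB sw r1 r2 dx dy) hmem
          rwa [tauB_tauI] at this
        have := ih (hx3 _ hy' hyB')
        rwa [Finset.image_insert, Finset.image_insert, tauB_tauI] at this

/-- the symmetry of the grid given by the parameters of a reference -/
def tauG (g dx dy : ℕ) : Cell → Cell :=
  tauB (!Nat.beq (Nat.land g 4) 0) (!Nat.beq (Nat.land g 1) 0) (!Nat.beq (Nat.land g 2) 0) dx dy

theorem mapU_cast {b d u : ℕ} (h : mapOKU b d u = true) :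
    ((mapU b d u : ℕ) : ℤ) = auxT (!Nat.beq b 0) d (u : ℤ) := by
  simp only [mapOKU, mapU, auxT] at h ⊢
  cases h1 : Nat.beq b 0 <;> simp only [h1, cond_false, cond_true, Bool.not_true, Bool.not_false] at h ⊢
  · have h2 : u ≤ d := Nat.le_of_ble_eq_true h
    show ((d - u : ℕ) : ℤ) = _
    omega
  · have h2 : 32 ≤ u + d := Nat.le_of_ble_eq_true h
    show ((u + d - 32 : ℕ) : ℤ) = _
    omega

/-- The code map agrees with the symmetry of the grid on cells. -/
theorem cellW_mapc {g dx dy c : ℕ} (h : mapOK g dx dy c = true) :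
    cellW (mapc g dx dy c) = tauG g dx dy (cellW c) := by
  simp only [mapOK, Bool.and_eq_true] at h
  obtain ⟨⟨h1, h2⟩, h3, h4⟩ := h
  have hx : mapX g dx c < 32 := by
    have := Nat.le_of_ble_eq_true h3
    exact this
  have hm : mapc g dx dy c = mapX g dx c + 32 * mapY g dy c := rfl
  have e1 : mapc g dx dy c % 32 = mapX g dx c := by omega
  have e2 : mapc g dx dy c / 32 = mapY g dy c := by omega
  have c1 : ((mapX g dx c : ℕ) : ℤ) = _ := mapU_cast h1
  have c2 : ((mapY g dy c : ℕ) : ℤ) = _ := mapU_cast h2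
  simp only [cellW, e1, e2, c1, c2, tauG, tauB, Prod.mk.injEq]
  have e3 : ((mapA g c : ℕ) : ℤ) = cond (!Nat.beq (Nat.land g 4) 0)
      ((((c / 32 : ℕ) : ℤ) - 17) + 17) (((c % 32 : ℕ) : ℤ) - 16 + 16) := by
    simp only [mapA]
    cases Nat.beq (Nat.land g 4) 0 <;>
      simp only [Bool.not_true, Bool.not_false, cond_true, cond_false]
    · show ((c / 32 : ℕ) : ℤ) = _
      ring
    · show ((c % 32 : ℕ) : ℤ) = _
      ring
  have e4 : ((mapB g c : ℕ) : ℤ) = cond (!Nat.beq (Nat.land g 4) 0)
      ((((c % 32 : ℕ) : ℤ) - 16) + 16) (((c / 32 : ℕ) : ℤ) - 17 + 17) := by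
    simp only [mapB]
    cases Nat.beq (Nat.land g 4) 0 <;>
      simp only [Bool.not_true, Bool.not_false, cond_true, cond_false]
    · show ((c % 32 : ℕ) : ℤ) = _
      ring
    · show ((c / 32 : ℕ) : ℤ) = _
      ring
  rw [e3, e4]
  exact ⟨rfl, rfl⟩

/-- The image of a cell has a code from 32 on. -/
theorem mapc_ge {g dx dy c : ℕ} (h : mapOK g dx dy c = true) : 32 ≤ mapc g dx dy c := by
  simp only [mapOK, Bool.and_eq_true] at h
  have h4 : 1 ≤ mapY g dy c := Nat.le_of_ble_eq_true h.2.2
  have hm : mapc g dx dy c = mapX g dx c + 32 * mapY g dy c := rfl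
  omega

theorem one_shift_bit (x c : ℕ) : (Nat.shiftLeft 1 x).testBit c = decide (x = c) := by
  have h7 : Nat.shiftLeft 1 x = 2 ^ x := Nat.one_shiftLeft x
  rw [h7, Nat.testBit_two_pow]

/-- What the image loop computes. -/
theorem imgK_spec (g dx dy : ℕ) : ∀ (f m acc : ℕ) (k : ℕ → Bool), imgK g dx dy f m acc k = true →
    ∃ r, k r = true ∧ (∀ c, acc.testBit c = true → r.testBit c = true) ∧
      (∀ c, 32 ≤ c → m.testBit c = true →
        r.testBit (mapc g dx dy c) = true ∧ mapOK g dx dy c = true) := by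
  intro f
  induction f with
  | zero =>
    intro m acc k h
    exact absurd h (by simp [imgK])
  | succ f ih =>
    intro m acc k h
    change cond (Nat.ble m 4294967295) (k acc)
        (forceN (hbR 11 m) (fun c =>
          cond (mapOK g dx dy c)
            (forceN (Nat.xor m (Nat.shiftLeft 1 c)) (fun m' =>
              forceN (Nat.lor acc (Nat.shiftLeft 1 (mapc g dx dy c))) (fun acc' =>
                imgK g dx dy f m' acc' k)))
            false)) = true at h
    simp only [forceN_eq] at h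
    cases h1 : Nat.ble m 4294967295 <;> simp only [h1, cond_false, cond_true] at h
    · cases h2 : mapOK g dx dy (hbR 11 m) <;> simp only [h2, cond_false, cond_true] at h
      · exact absurd h (by simp)
      · obtain ⟨r, hr, h3, h4⟩ := ih _ _ _ h
        refine ⟨r, hr, fun c hc => h3 c (by rw [lor_bit', hc, Bool.true_or]), fun c hc32 hc => ?_⟩
        by_cases hc2 : c = hbR 11 m
        · subst hc2
          refine ⟨h3 _ ?_, h2⟩
          rw [lor_bit', one_shift_bit]
          simp
        · refine h4 c hc32 ?_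
          have hx : Nat.xor m (Nat.shiftLeft 1 (hbR 11 m)) = m ^^^ Nat.shiftLeft 1 (hbR 11 m) := rfl
          rw [hx, Nat.testBit_xor, one_shift_bit, hc]
          have : decide (hbR 11 m = c) = false := by
            simp only [decide_eq_false_iff_not]
            exact fun h => hc2 h.symm
          rw [this]
          rfl
    · have hm0 : m ≤ 4294967295 := Nat.le_of_ble_eq_true h1
      refine ⟨acc, h, fun _ h => h, fun c hc32 hc => ?_⟩
      have : m.testBit c = false := by
        apply Nat.testBit_lt_two_pow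
        calc m < 2 ^ 32 := by omega
          _ ≤ 2 ^ c := Nat.pow_le_pow_right (by norm_num) hc32
      rw [this] at hc
      exact absurd hc (by simp)

/-- A valid claim moved by a symmetry of the grid is valid. -/
theorem WR_image {g dx dy m z m' z' : ℕ} (h : WR m z)
    (hm : ∀ c, 32 ≤ c → m.testBit c = true →
      m'.testBit (mapc g dx dy c) = true ∧ mapOK g dx dy c = true)
    (hz : ∀ c, 32 ≤ c → z.testBit c = true →
      z'.testBit (mapc g dx dy c) = true ∧ mapOK g dx dy c = true) :
    WR m' z' := by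
  obtain ⟨n, hn⟩ := h
  refine ⟨n, fun M B h1 h2 h3 => ?_⟩
  set sw : Bool := !Nat.beq (Nat.land g 4) 0 with hsw
  set r1 : Bool := !Nat.beq (Nat.land g 1) 0 with hr1
  set r2 : Bool := !Nat.beq (Nat.land g 2) 0 with hr2
  have ht : tauG g dx dy = tauB sw r1 r2 dx dy := rfl
  have key := hn (M.image (tauI sw r1 r2 dx dy)) (B.image (tauI sw r1 r2 dx dy)) ?_ ?_ ?_
  · have := forces_tauB sw r1 r2 dx dy key
    rw [Finset.image_image, Finset.image_image] at this
    have e : (tauB sw r1 r2 dx dy ∘ tauI sw r1 r2 dx dy) = id := funext (tauB_tauI sw r1 r2 dx dy)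
    rwa [e, Finset.image_id, Finset.image_id] at this
  · intro c hc32 hc
    obtain ⟨hb, hok⟩ := hm c hc32 hc
    have h4 := h1 _ (mapc_ge hok) hb
    rw [cellW_mapc hok, ht] at h4
    have := Finset.mem_image_of_mem (tauI sw r1 r2 dx dy) h4
    rwa [tauI_tauB] at this
  · intro c hc32 hc hmem
    obtain ⟨hb, hok⟩ := hz c hc32 hc
    obtain ⟨b, hbB, hbe⟩ := Finset.mem_image.mp hmem
    apply h2 _ (mapc_ge hok) hb
    rw [cellW_mapc hok, ht, ← hbe, tauB_tauI]
    exact hbB
  · intro p hp hmem
    obtain ⟨a, ha, rfl⟩ := Finset.mem_image.mp hp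
    obtain ⟨b, hb, hbe⟩ := Finset.mem_image.mp hmem
    have : b = a := by
      have := congrArg (tauB sw r1 r2 dx dy) hbe
      rwa [tauB_tauI, tauB_tauI] at this
    subst this
    exact h3 _ ha hb

/-- A lookup with a symmetry yields a valid claim. -/
theorem refImg_sound {t : Tb} (ht : TGood t) (key g dx dy : ℕ) (k : ℕ → ℕ → Bool)
    (h : refImg t key g dx dy k = true) : ∃ m z, WR m z ∧ k m z = true := by
  simp only [refImg, forceN_eq] at h
  obtain ⟨m, z, hw, hc⟩ := tget_sound t ht _ _ h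
  cases h1 : (and (and (Nat.beq g 0) (Nat.beq dx 32)) (Nat.beq dy 32)) <;>
    simp only [h1, cond_false, cond_true] at hc
  · obtain ⟨m', hm1, hm2, hm3⟩ := imgK_spec g dx dy _ _ _ _ hc
    obtain ⟨z', hz1, hz2, hz3⟩ := imgK_spec g dx dy _ _ _ _ hm1
    exact ⟨m', z', WR_image hw hm3 hz3, hz1⟩
  · exact ⟨m, z, hw, hc⟩

theorem kstep_sound {t : Tb} (ht : TGood t) (k ih' : KK) {mu zu inter : ℕ} (hK : KR mu zu inter)
    (hih : ∀ mu' zu' inter' buf rest, KR mu' zu' inter' → ih' mu' zu' inter' buf rest = true →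
      ∃ mu' zu' inter' b r, KR mu' zu' inter' ∧ k mu' zu' inter' b r = true)
    (buf : ℕ) (rest : List ℕ) (h : kstep t k ih' mu zu inter buf rest = true) :
    ∃ mu' zu' inter' b r, KR mu' zu' inter' ∧ k mu' zu' inter' b r = true := by
  simp only [kstep, forceN_eq] at h
  cases h2 : Nat.beq (Nat.land buf 1) 0 <;> simp only [h2, cond_false, cond_true] at h
  · obtain ⟨m, z, hw, hc⟩ := refImg_sound ht _ _ _ _ _ h
    exact hih _ _ _ _ _ (KR_step hK hw) hc
  · exact ⟨_, _, _, _, _, hK, h⟩

theorem kloop_sound {t : Tb} (ht : TGood t) (k : KK) :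
    ∀ (f mu zu inter buf : ℕ) (rest : List ℕ), KR mu zu inter →
      kloop t k f mu zu inter buf rest = true →
      ∃ mu' zu' inter' b r, KR mu' zu' inter' ∧ k mu' zu' inter' b r = true := by
  intro f
  induction f with
  | zero =>
    intro mu zu inter buf rest _ h
    exact absurd h (by simp [kloop])
  | succ f ih =>
    intro mu zu inter buf rest hK h
    change cond (Nat.beq buf 1)
        (popK rest (fun a r => kstep t k (kloop t k f) mu zu inter a r))
        (kstep t k (kloop t k f) mu zu inter buf rest) = true at h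
    have hih : ∀ mu' zu' inter' buf rest, KR mu' zu' inter' →
        kloop t k f mu' zu' inter' buf rest = true →
        ∃ mu' zu' inter' b r, KR mu' zu' inter' ∧ k mu' zu' inter' b r = true :=
      fun mu' zu' inter' buf rest hK' h' => ih mu' zu' inter' buf rest hK' h'
    cases h1 : Nat.beq buf 1 <;> simp only [h1, cond_false, cond_true, popK_eq] at h
    · exact kstep_sound ht k _ hK hih _ _ h
    · exact kstep_sound ht k _ hK hih _ _ h

theorem stepB_sound {fin : ℕ → ℕ → Bool} (rc : ℕ → Tb → ℕ → List ℕ → ℕ → ℕ → Bool)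
    (hrc : ∀ id t b r lm lz, TGood t → WR lm lz → rc id t b r lm lz = true →
      ∃ m z, WR m z ∧ fin m z = true)
    (id : ℕ) (t : Tb) (buf : ℕ) (rest : List ℕ) (ht : TGood t)
    (h : stepB rc id t buf rest = true) : ∃ m z, WR m z ∧ fin m z = true := by
  simp only [stepB, forceN_eq] at h
  cases h1 : Nat.beq (Nat.land buf 1) 0 <;> simp only [h1, cond_false, cond_true] at h
  · obtain ⟨m, z, hw, hc⟩ := refImg_sound ht _ _ _ _ _ h
    obtain ⟨mu, zu, inter, b, r, hK, hc'⟩ := kloop_sound ht _ _ _ _ _ _ _ (KR_first hw) hc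
    simp only [finB, forceN_eq] at hc'
    have hW := WR_of_KR (Nat.add (bitf32 buf 1 1023) 32) (by
      show 32 ≤ bitf32 buf 1 1023 + 32
      omega) hK
    obtain ⟨t', ht', hk⟩ := tinsK_sound hW _ _ _ _ ht hc'
    exact hrc _ _ _ _ _ _ ht' hW hk
  · cases h2 : leafOK32 (bitf32 buf 1 7) (bitf32 buf 4 2047) <;>
      simp only [h2, cond_false, cond_true] at h
    · exact absurd h (by simp)
    · have hW := WR_leaf h2
      obtain ⟨t', ht', hk⟩ := tinsK_sound hW _ _ _ _ ht h
      exact hrc _ _ _ _ _ _ ht' hW hk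

/-- Soundness of the run of the checker. -/
theorem runD_sound (fin : ℕ → ℕ → Bool) : ∀ (f id : ℕ) (t : Tb) (buf : ℕ) (rest : List ℕ)
    (lm lz : ℕ), TGood t → WR lm lz → runD fin f id t buf rest lm lz = true →
      ∃ m z, WR m z ∧ fin m z = true := by
  intro f
  induction f with
  | zero =>
    intro id t buf rest lm lz _ hl h
    exact ⟨lm, lz, hl, h⟩
  | succ f ih =>
    intro id t buf rest lm lz ht _ h
    change cond (Nat.beq buf 1)
        (popK rest (fun a r => stepB (runD fin f) id t a r))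
        (stepB (runD fin f) id t buf rest) = true at h
    cases h1 : Nat.beq buf 1 <;> simp only [h1, cond_false, cond_true, popK_eq] at h
    · exact stepB_sound _ ih _ _ _ _ ht h
    · exact stepB_sound _ ih _ _ _ _ ht h

/-- A run of the checker proves a claim. -/
theorem WR_of_run {fin : ℕ → ℕ → Bool} {f : ℕ} {data : List ℕ}
    (h : runD fin f 0 Tb.nil (hd32 data) (tl32 data) (cpat32 0 32) 0 = true) :
    ∃ m z, WR m z ∧ fin m z = true :=
  runD_sound fin f 0 Tb.nil _ _ _ _ trivial WR_default h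

theorem cellW_560 : cellW 560 = (0, 0) := by decide

theorem cellW_561 : cellW 561 = (1, 0) := by decide

/-- A certificate for the reply at `(1, 0)`. -/
theorem reply10_of_claim {m z : ℕ} (hw : WR m z) (h : finR10 m z = true) :
    ∃ n, MakerForces n {((0 : ℤ), (0 : ℤ))} {((1 : ℤ), (0 : ℤ))} := by
  obtain ⟨n, hn⟩ := hw
  simp only [finR10, Bool.and_eq_true, Bool.not_eq_true'] at h
  have h1 : Nat.lor (Nat.shiftRight m 32) (Nat.shiftLeft 1 528) = Nat.shiftLeft 1 528 :=
    Nat.eq_of_beq_eq_true h.1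
  have h2 : Nat.testBit z 561 = false := h.2
  have key : ∀ e : ℕ, Nat.lor (Nat.shiftRight m 32) (Nat.shiftLeft 1 e) = Nat.shiftLeft 1 e →
      ∀ c, 32 ≤ c → m.testBit c = true → c - 32 = e := by
    intro e he c hc32 hc
    have h3 := congrArg (fun t => Nat.testBit t (c - 32)) he
    have h4 : (Nat.shiftRight m 32).testBit (c - 32) = true := by
      have h5 : Nat.shiftRight m 32 = m >>> 32 := rfl
      rw [h5, Nat.testBit_shiftRight]
      have : 32 + (c - 32) = c := by omega
      rw [this]
      exact hc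
    simp only [lor_bit', h4, Bool.true_or] at h3
    have h7 : Nat.shiftLeft 1 e = 2 ^ e := Nat.one_shiftLeft e
    rw [h7, Nat.testBit_two_pow] at h3
    have : e = c - 32 := of_decide_eq_true h3.symm
    exact this.symm
  refine ⟨n, hn _ _ ?_ ?_ ?_⟩
  · intro c hc32 hc
    have hc' := key 528 h1 c hc32 hc
    have : c = 560 := by omega
    subst this
    rw [cellW_560]
    simp
  · intro c _ hc hmem
    have h3 : cellW c = (1, 0) := Finset.mem_singleton.mp hmem
    have hc' : c = 561 := cellW_inj (h3.trans cellW_561.symm)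
    subst hc'
    rw [h2] at hc
    exact absurd hc (by simp)
  · intro p hp hmem
    rw [Finset.mem_singleton.mp hp] at hmem
    have := Finset.mem_singleton.mp hmem
    exact absurd this (by decide)

end Vale.Agent.Lib.P062
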