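import Vale.Agent.Lib.P062.Main
import Vale.Agent.Lib.P062.DagSound

/-!
Assembly of the full answer: the reply of Breaker at `(1, 0)` loses, and by symmetry so do the other
three replies that share an edge with the first stone of Maker.  All other replies lose by
`replies_main`.
-/

namespace Vale.Agent.Lib.P062

/-- Every reply of Breaker to the first stone of Maker loses, within a uniform number of moves. -/
theorem all_replies_of_reply10 (h10 : ∃ n, MakerForces n {((0 : ℤ), (0 : ℤ))} {((1 : ℤ), (0 : ℤ))}) :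
    ∃ n, ∀ y : Cell, y ≠ (0, 0) → MakerForces n {((0 : ℤ), (0 : ℤ))} {y} := by
  obtain ⟨n1, h1⟩ := replies_main
  obtain ⟨n2, h2⟩ := h10
  have h2' := MakerForces.mono (le_max_right n1 n2) h2
  refine ⟨max n1 n2, fun y hy0 => ?_⟩
  by_cases hy1 : y = (1, 0)
  · rw [hy1]
    exact h2'
  by_cases hy2 : y = (-1, 0)
  · have := reply_transport (a := -1) (b := 0) (c := 0) (d := 1) (a' := -1) (b' := 0) (c' := 0)
      (d' := 1) (by simp [IsSignedPerm]) (by intro p; simp [act]) (by intro p; simp [act]) h2'
    have e : act (-1) 0 0 1 ((1 : ℤ), (0 : ℤ)) = (-1, 0) := by simp [act]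
    rw [e] at this
    rw [hy2]
    exact this
  by_cases hy3 : y = (0, 1)
  · have := reply_transport (a := 0) (b := 1) (c := 1) (d := 0) (a' := 0) (b' := 1) (c' := 1)
      (d' := 0) (by simp [IsSignedPerm]) (by intro p; simp [act]) (by intro p; simp [act]) h2'
    have e : act 0 1 1 0 ((1 : ℤ), (0 : ℤ)) = (0, 1) := by simp [act]
    rw [e] at this
    rw [hy3]
    exact this
  by_cases hy4 : y = (0, -1)
  · have := reply_transport (a := 0) (b := 1) (c := -1) (d := 0) (a' := 0) (b' := -1) (c' := 1)
      (d' := 0) (by simp [IsSignedPerm]) (by intro p; simp [act]) (by intro p; simp [act]) h2'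
    have e : act 0 1 (-1) 0 ((1 : ℤ), (0 : ℤ)) = (0, -1) := by simp [act]
    rw [e] at this
    rw [hy4]
    exact this
  exact MakerForces.mono (le_max_left n1 n2) (h1 y hy0 hy1 hy2 hy3 hy4)

/-- Maker wins the Snaky game on the empty plane once the reply at `(1, 0)` is settled. -/
theorem maker_wins_of_reply10 (h10 : ∃ n, MakerForces n {((0 : ℤ), (0 : ℤ))} {((1 : ℤ), (0 : ℤ))}) :
    ∃ n, MakerForces n ∅ ∅ := by
  obtain ⟨n, hn⟩ := all_replies_of_reply10 h10
  exact ⟨n + 1, game_of_replies hn⟩

/-- Maker wins the Snaky game on the empty plane, given a run of the checker for the reply at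
`(1, 0)`. -/
theorem maker_wins_of_run {f : ℕ} {data : List ℕ}
    (h : runD finR10 f 0 Tb.nil (hd32 data) (tl32 data) (cpat32 0 32) 0 = true) :
    ∃ n, MakerForces n ∅ ∅ := by
  obtain ⟨m, z, hw, hf⟩ := WR_of_run h
  exact maker_wins_of_reply10 (reply10_of_claim hw hf)

end Vale.Agent.Lib.P062
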