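import Vale.Agent.Lib.P062.Root
import Vale.Agent.Lib.P062.Cert_r3_1
import Vale.Agent.Lib.P062.Cert_r4_1
import Vale.Agent.Lib.P062.Cert_r2_2
import Vale.Agent.Lib.P062.Cert_r4_0
import Vale.Agent.Lib.P062.Cert_r2_1
import Vale.Agent.Lib.P062.Cert_r3_0
import Vale.Agent.Lib.P062.Cert_r3_3
import Vale.Agent.Lib.P062.Cert_r2_0
import Vale.Agent.Lib.P062.Cert_r1_1

/-!
Assembly of the certificates: every first reply of Breaker other than the four cells that share an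
edge with the first stone of Maker loses.
-/

namespace Vale.Agent.Lib.P062

theorem w_r3_1 : W m0 0x1c003c1ffc1ffe3bfe3ffcfffdfff1ffc1ff01fe03e00140 := W_of_chk ok_r3_1

theorem w_r4_1 : W m0 0x1c003c01fe07fe07fe7ffcfffdfff1ffe7ff87ff07fc05a0 := W_of_chk ok_r4_1

theorem w_r2_2 : W m0 0x1c013c037e0efc1ffe7ffcfffdfff1ffe7ff87ff07fc01e0 := W_of_chk ok_r2_2

theorem w_r4_0 : W m0 0x1c007c03fe0ffe0ffe0ffc7ffdfff1ffe7ff87ff07fc01c0 := W_of_chk ok_r4_0

theorem w_r2_1 : W m0 0x7003fc07fc3ff87ff1fff1dfffffcfffcffe0ffe1ff01fe03f80000 := W_of_chk ok_r2_1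

theorem w_r3_0 : W m0 0x7800f007f01ff03ff3fff3ffe77f87ffcfff1ffc0ff01fe00fc0020 := W_of_chk ok_r3_0

theorem w_r3_3 : W m0 0x1e007c00fe0ffe3ffe7ffcfff1fff1ffc7ff87ff07fc03e0 := W_of_chk ok_r3_3

theorem w_r2_0 : W m0 0x9401fc07fc1ffc7ffcfff1fff3bfe7ffcfff1ffe1ffc1fe00f80000 := W_of_chk ok_r2_0

theorem w_r1_1 : W m0 0x5f80ffa1ffc7ff9fffbefeffffffffffffffffffc3ff87ff0578 := W_of_chk ok_r1_1

/-- the zones of the certificates -/
def zonesMain : List Nat := [0x1c003c1ffc1ffe3bfe3ffcfffdfff1ffc1ff01fe03e00140, 0x1c003c01fe07fe07fe7ffcfffdfff1ffe7ff87ff07fc05a0, 0x1c013c037e0efc1ffe7ffcfffdfff1ffe7ff87ff07fc01e0, 0x1c007c03fe0ffe0ffe0ffc7ffdfff1ffe7ff87ff07fc01c0, 0x7003fc07fc3ff87ff1fff1dfffffcfffcffe0ffe1ff01fe03f80000, 0x7800f007f01ff03ff3fff3ffe77f87ffcfff1ffc0ff01fe00fc0020, 0x1e007c00fe0ffe3ffe7ffcfff1fff1ffc7ff87ff07fc03e0, 0x9401fc07fc1ffc7ffcfff1fff3bfe7ffcfff1ffe1ffc1fe00f80000, 0x5f80ffa1ffc7ff9fffbefeffffffffffffffffffc3ff87ff0578]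

/-- the cells that share an edge with the center -/
def adjMask : Nat := 0x80028002000000000000000000000000

theorem cover_main : allBelow (coverAt zonesMain adjMask) 225 = true := by decide +kernel

theorem zones_W : ∀ z ∈ zonesMain, W m0 z := by
  intro z hz
  simp only [zonesMain, List.mem_cons, List.not_mem_nil, or_false] at hz
  rcases hz with rfl | rfl | rfl | rfl | rfl | rfl | rfl | rfl | rfl
  · exact w_r3_1
  · exact w_r4_1
  · exact w_r2_2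
  · exact w_r4_0
  · exact w_r2_1
  · exact w_r3_0
  · exact w_r3_3
  · exact w_r2_0
  · exact w_r1_1

theorem adj_bit (y : Cell) (h1 : y ≠ (1, 0)) (h2 : y ≠ (-1, 0)) (h3 : y ≠ (0, 1)) (h4 : y ≠ (0, -1))
    (i : ℕ) (hi : i < 225) (hc : cellOf i = y) : adjMask.testBit i = false := by
  subst hc
  have key : ∀ i, i < 225 → adjMask.testBit i = true →
      i = 113 ∨ i = 111 ∨ i = 127 ∨ i = 97 := by
    decide +kernel
  by_contra hb
  have hb' : adjMask.testBit i = true := by simpa using hb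
  rcases key i hi hb' with rfl | rfl | rfl | rfl
  · exact h1 (by simp [cellOf])
  · exact h2 (by simp [cellOf])
  · exact h3 (by simp [cellOf])
  · exact h4 (by simp [cellOf])

/-- Main partial theorem. -/
theorem replies_main : ∃ n, ∀ y : Cell, y ≠ (0, 0) → y ≠ (1, 0) → y ≠ (-1, 0) → y ≠ (0, 1) →
    y ≠ (0, -1) → MakerForces n {((0 : ℤ), (0 : ℤ))} {y} := by
  obtain ⟨n, hn⟩ := replies_of_cover (zs := zonesMain) (by simp [zonesMain]) zones_W cover_main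
  exact ⟨n, fun y h0 h1 h2 h3 h4 => hn y h0 (adj_bit y h1 h2 h3 h4)⟩

end Vale.Agent.Lib.P062
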