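import Vale.Agent.Lib.P062.Sound

/-!
Symmetry of the game under the eight signed permutation matrices, and the assembly of certificates
into a result on the first reply of Breaker.
-/

namespace Vale.Agent.Lib.P062

/-- the action of a matrix on cells -/
def act (a b c d : ℤ) (p : Cell) : Cell := (a * p.1 + b * p.2, c * p.1 + d * p.2)

theorem IsSignedPerm.mul {a b c d a' b' c' d' : ℤ} (h : IsSignedPerm a b c d)
    (h' : IsSignedPerm a' b' c' d') :
    IsSignedPerm (a * a' + b * c') (a * b' + b * d') (c * a' + d * c') (c * b' + d * d') := by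
  rcases h with ⟨rfl, rfl, ha, hd⟩ | ⟨rfl, rfl, hb, hc⟩ <;>
    rcases h' with ⟨rfl, rfl, ha', hd'⟩ | ⟨rfl, rfl, hb', hc'⟩
  · left
    refine ⟨by ring, by ring, ?_, ?_⟩
    · rcases ha with rfl | rfl <;> rcases ha' with rfl | rfl <;> simp
    · rcases hd with rfl | rfl <;> rcases hd' with rfl | rfl <;> simp
  · right
    refine ⟨by ring, by ring, ?_, ?_⟩
    · rcases ha with rfl | rfl <;> rcases hb' with rfl | rfl <;> simp
    · rcases hd with rfl | rfl <;> rcases hc' with rfl | rfl <;> simp
  · right
    refine ⟨by ring, by ring, ?_, ?_⟩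
    · rcases hb with rfl | rfl <;> rcases hd' with rfl | rfl <;> simp
    · rcases hc with rfl | rfl <;> rcases ha' with rfl | rfl <;> simp
  · left
    refine ⟨by ring, by ring, ?_, ?_⟩
    · rcases hb with rfl | rfl <;> rcases hc' with rfl | rfl <;> simp
    · rcases hc with rfl | rfl <;> rcases hb' with rfl | rfl <;> simp

theorem IsCopy.act {a b c d : ℤ} (hs : IsSignedPerm a b c d) {C : Finset Cell} (hC : IsCopy C) :
    IsCopy (C.image (act a b c d)) := by
  obtain ⟨a', b', c', d', t₁, t₂, hs', rfl⟩ := hC
  refine ⟨a * a' + b * c', a * b' + b * d', c * a' + d * c', c * b' + d * d',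
    a * t₁ + b * t₂, c * t₁ + d * t₂, hs.mul hs', ?_⟩
  rw [Finset.image_image]
  refine Finset.image_congr ?_
  intro p _
  simp only [Function.comp, Vale.Agent.Lib.P062.act, Prod.mk.injEq]
  constructor <;> ring

theorem HasCopy.act {a b c d : ℤ} (hs : IsSignedPerm a b c d) {M : Finset Cell} (h : HasCopy M) :
    HasCopy (M.image (act a b c d)) := by
  obtain ⟨C, hC, hc⟩ := h
  exact ⟨_, Finset.image_subset_image hC, hc.act hs⟩

/-- The game is invariant under the symmetries. -/
theorem forces_image {a b c d a' b' c' d' : ℤ} (hs : IsSignedPerm a b c d)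
    (h1 : ∀ p, act a b c d (act a' b' c' d' p) = p) (h2 : ∀ p, act a' b' c' d' (act a b c d p) = p)
    {n : ℕ} {M B : Finset Cell} (h : MakerForces n M B) :
    MakerForces n (M.image (act a b c d)) (B.image (act a b c d)) := by
  have hinj : Function.Injective (act a b c d) := fun p q hpq => by
    have := congrArg (act a' b' c' d') hpq
    rwa [h2, h2] at this
  induction n generalizing M B with
  | zero => exact HasCopy.act hs h
  | succ n ih =>
    rcases h with h | ⟨x, hx1, hx2, hx3⟩
    · exact Or.inl (HasCopy.act hs h)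
    · refine Or.inr ⟨act a b c d x, ?_, ?_, fun y hy hyB => ?_⟩
      · rw [Finset.mem_image]
        rintro ⟨q, hq, hqx⟩
        rw [hinj hqx] at hq
        exact hx1 hq
      · rw [Finset.mem_image]
        rintro ⟨q, hq, hqx⟩
        rw [hinj hqx] at hq
        exact hx2 hq
      · have hy' : act a' b' c' d' y ∉ insert x M := by
          intro hmem
          apply hy
          have := Finset.mem_image_of_mem (act a b c d) hmem
          rw [h1, Finset.image_insert] at this
          exact this
        have hyB' : act a' b' c' d' y ∉ B := by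
          intro hmem
          apply hyB
          have := Finset.mem_image_of_mem (act a b c d) hmem
          rwa [h1] at this
        have := ih (hx3 _ hy' hyB')
        rwa [Finset.image_insert, Finset.image_insert, h1] at this

/-- the index of a cell under one of the eight symmetries of the window -/
def gidx (g i : ℕ) : ℕ :=
  match g with
  | 0 => i % 15 + 15 * (i / 15)
  | 1 => i / 15 + 15 * (i % 15)
  | 2 => (14 - i % 15) + 15 * (i / 15)
  | 3 => (14 - i / 15) + 15 * (i % 15)
  | 4 => i % 15 + 15 * (14 - i / 15)
  | 5 => i / 15 + 15 * (14 - i % 15)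
  | 6 => (14 - i % 15) + 15 * (14 - i / 15)
  | _ => (14 - i / 15) + 15 * (14 - i % 15)

/-- the mask of the first stone of Maker, at the center of the window -/
def m0 : ℕ := Nat.shiftLeft 1 112

theorem toSet_m0 : toSet m0 = {((0 : ℤ), (0 : ℤ))} := by
  ext p
  rw [mem_toSet, Finset.mem_singleton]
  constructor
  · rintro ⟨i, _, hb, rfl⟩
    have h7 : m0 = 2 ^ 112 := Nat.one_shiftLeft 112
    rw [h7, Nat.testBit_two_pow] at hb
    have : i = 112 := by simpa [eq_comm] using hb
    subst this
    rfl
  · rintro rfl
    refine ⟨112, by norm_num, ?_, rfl⟩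
    have h7 : m0 = 2 ^ 112 := Nat.one_shiftLeft 112
    rw [h7, Nat.testBit_two_pow]
    simp

/-- A uniform depth for finitely many patterns. -/
theorem W_list {m : ℕ} : ∀ zs : List ℕ, (∀ z ∈ zs, W m z) →
    ∃ n, ∀ z ∈ zs, ∀ B, Free z B → MakerForces n (toSet m) B := by
  intro zs
  induction zs with
  | nil => exact fun _ => ⟨0, by simp⟩
  | cons a l ih =>
    intro h
    obtain ⟨n1, h1⟩ := h a (by simp)
    obtain ⟨n2, h2⟩ := ih (fun z hz => h z (by simp [hz]))
    refine ⟨max n1 n2, ?_⟩
    intro z hz B hB
    rcases List.mem_cons.mp hz with rfl | hz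
    · exact MakerForces.mono (le_max_left _ _) (h1 B hB)
    · exact MakerForces.mono (le_max_right _ _) (h2 z hz B hB)

/-- The reply at cell `p` is covered by a pattern when the cell is not in the zone. -/
theorem reply_of_W {n z : ℕ} (h : ∀ B, Free z B → MakerForces n (toSet m0) B) {q : Cell}
    (hq : ∀ i, i < 225 → cellOf i = q → z.testBit i = false) :
    MakerForces n {((0 : ℤ), (0 : ℤ))} {q} := by
  rw [← toSet_m0]
  refine h _ ?_
  intro i hi hb hmem
  have := hq i hi (Finset.mem_singleton.mp hmem)
  rw [hb] at this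
  exact absurd this (by simp)

theorem act_zero (a b c d : ℤ) : act a b c d (0, 0) = (0, 0) := by
  simp [act]

/-- Transport of a reply by a symmetry. -/
theorem reply_transport {a b c d a' b' c' d' : ℤ} (hs : IsSignedPerm a b c d)
    (h1 : ∀ p, act a b c d (act a' b' c' d' p) = p) (h2 : ∀ p, act a' b' c' d' (act a b c d p) = p)
    {n : ℕ} {q : Cell} (h : MakerForces n {((0 : ℤ), (0 : ℤ))} {q}) :
    MakerForces n {((0 : ℤ), (0 : ℤ))} {act a b c d q} := by
  have := forces_image hs h1 h2 h
  rwa [Finset.image_singleton, Finset.image_singleton, act_zero] at this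

/-- Every symmetry of the window acts on the cells as a signed permutation matrix. -/
theorem sym_reply (g : ℕ) (hg : g < 8) {n : ℕ} {i : ℕ} (hi : i < 225)
    (h : MakerForces n {((0 : ℤ), (0 : ℤ))} {cellOf (gidx g i)}) :
    MakerForces n {((0 : ℤ), (0 : ℤ))} {cellOf i} := by
  have hmod : ∀ u v : ℕ, u < 15 → (u + 15 * v) % 15 = u := by intro u v hu; omega
  have hdiv : ∀ u v : ℕ, u < 15 → (u + 15 * v) / 15 = v := by intro u v hu; omega
  have hlo : i % 15 < 15 := Nat.mod_lt _ (by norm_num)
  have hhi : i / 15 < 15 := by omega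
  interval_cases g
  · -- identity
    have : cellOf (gidx 0 i) = cellOf i := by
      simp only [gidx, cellOf, Prod.mk.injEq]
      constructor <;> omega
    rwa [this] at h
  · -- transpose
    have := reply_transport (a := 0) (b := 1) (c := 1) (d := 0) (a' := 0) (b' := 1) (c' := 1)
      (d' := 0) (by simp [IsSignedPerm]) (by intro p; simp [act]) (by intro p; simp [act]) h
    have e : act 0 1 1 0 (cellOf (gidx 1 i)) = cellOf i := by
      simp only [gidx, cellOf, act, Prod.mk.injEq]
      constructor <;> omega
    rwa [e] at this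
  · have := reply_transport (a := -1) (b := 0) (c := 0) (d := 1) (a' := -1) (b' := 0) (c' := 0)
      (d' := 1) (by simp [IsSignedPerm]) (by intro p; simp [act]) (by intro p; simp [act]) h
    have e : act (-1) 0 0 1 (cellOf (gidx 2 i)) = cellOf i := by
      simp only [gidx, cellOf, act, Prod.mk.injEq]
      constructor <;> omega
    rwa [e] at this
  · have := reply_transport (a := 0) (b := 1) (c := -1) (d := 0) (a' := 0) (b' := -1) (c' := 1)
      (d' := 0) (by simp [IsSignedPerm]) (by intro p; simp [act]) (by intro p; simp [act]) h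
    have e : act 0 1 (-1) 0 (cellOf (gidx 3 i)) = cellOf i := by
      simp only [gidx, cellOf, act, Prod.mk.injEq]
      constructor <;> omega
    rwa [e] at this
  · have := reply_transport (a := 1) (b := 0) (c := 0) (d := -1) (a' := 1) (b' := 0) (c' := 0)
      (d' := -1) (by simp [IsSignedPerm]) (by intro p; simp [act]) (by intro p; simp [act]) h
    have e : act 1 0 0 (-1) (cellOf (gidx 4 i)) = cellOf i := by
      simp only [gidx, cellOf, act, Prod.mk.injEq]
      constructor <;> omega
    rwa [e] at this
  · have := reply_transport (a := 0) (b := -1) (c := 1) (d := 0) (a' := 0) (b' := 1) (c' := -1)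
      (d' := 0) (by simp [IsSignedPerm]) (by intro p; simp [act]) (by intro p; simp [act]) h
    have e : act 0 (-1) 1 0 (cellOf (gidx 5 i)) = cellOf i := by
      simp only [gidx, cellOf, act, Prod.mk.injEq]
      constructor <;> omega
    rwa [e] at this
  · have := reply_transport (a := -1) (b := 0) (c := 0) (d := -1) (a' := -1) (b' := 0) (c' := 0)
      (d' := -1) (by simp [IsSignedPerm]) (by intro p; simp [act]) (by intro p; simp [act]) h
    have e : act (-1) 0 0 (-1) (cellOf (gidx 6 i)) = cellOf i := by
      simp only [gidx, cellOf, act, Prod.mk.injEq]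
      constructor <;> omega
    rwa [e] at this
  · have := reply_transport (a := 0) (b := -1) (c := -1) (d := 0) (a' := 0) (b' := -1) (c' := -1)
      (d' := 0) (by simp [IsSignedPerm]) (by intro p; simp [act]) (by intro p; simp [act]) h
    have e : act 0 (-1) (-1) 0 (cellOf (gidx 7 i)) = cellOf i := by
      simp only [gidx, cellOf, act, Prod.mk.injEq]
      constructor <;> omega
    rwa [e] at this

/-- boolean check of all numbers below `n` -/
noncomputable def allBelow (p : Nat → Bool) (n : Nat) : Bool :=
  Nat.rec true (fun i ih => and ih (p i)) n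

theorem allBelow_spec {p : Nat → Bool} {n : Nat} (h : allBelow p n = true) :
    ∀ i, i < n → p i = true := by
  induction n with
  | zero => intro i hi; omega
  | succ n ih =>
    have h' : and (allBelow p n) (p n) = true := h
    rw [Bool.and_eq_true] at h'
    intro i hi
    by_cases hin : i < n
    · exact ih h'.1 i hin
    · obtain rfl : i = n := by omega
      exact h'.2

/-- boolean check of all symmetries -/
def anySym (z i : Nat) : Bool :=
  (!(z.testBit (gidx 0 i)) || !(z.testBit (gidx 1 i))) ||
  (!(z.testBit (gidx 2 i)) || !(z.testBit (gidx 3 i))) ||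
  (!(z.testBit (gidx 4 i)) || !(z.testBit (gidx 5 i))) ||
  (!(z.testBit (gidx 6 i)) || !(z.testBit (gidx 7 i)))

theorem anySym_spec {z i : ℕ} (h : anySym z i = true) : ∃ g, g < 8 ∧ z.testBit (gidx g i) = false := by
  simp only [anySym, Bool.or_eq_true, Bool.not_eq_true'] at h
  rcases h with (((h | h) | (h | h)) | (h | h)) | (h | h)
  · exact ⟨0, by norm_num, h⟩
  · exact ⟨1, by norm_num, h⟩
  · exact ⟨2, by norm_num, h⟩
  · exact ⟨3, by norm_num, h⟩
  · exact ⟨4, by norm_num, h⟩
  · exact ⟨5, by norm_num, h⟩
  · exact ⟨6, by norm_num, h⟩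
  · exact ⟨7, by norm_num, h⟩

/-- some zone of the list, under some symmetry, does not contain the cell `i` -/
def anyZone (zs : List Nat) (i : Nat) : Bool := zs.any (fun z => anySym z i)

/-- the table of covered replies: the cell `i` is the first stone, or an excluded cell, or covered -/
def coverAt (zs : List Nat) (e i : Nat) : Bool :=
  Nat.beq i 112 || e.testBit i || anyZone zs i

/-- The assembly: if all cells of the window are covered, then, apart from the excluded cells of
the mask `e`, every first reply of Breaker loses within a uniform number of moves. -/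
theorem replies_of_cover {zs : List ℕ} (hne : zs ≠ []) (hW : ∀ z ∈ zs, W m0 z) {e : ℕ}
    (hc : allBelow (coverAt zs e) 225 = true) :
    ∃ n, ∀ y : Cell, y ≠ (0, 0) → (∀ i, i < 225 → cellOf i = y → e.testBit i = false) →
      MakerForces n {((0 : ℤ), (0 : ℤ))} {y} := by
  obtain ⟨n, hn⟩ := W_list zs hW
  refine ⟨n, fun y hy he => ?_⟩
  by_cases hex : ∃ i, i < 225 ∧ cellOf i = y
  · obtain ⟨i, hi, rfl⟩ := hex
    have h1 := allBelow_spec hc i hi
    simp only [coverAt, Bool.or_eq_true] at h1
    have hi0 : i ≠ 112 := by
      rintro rfl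
      exact hy rfl
    have he' := he i hi rfl
    rcases h1 with (h1 | h1) | h1
    · exact absurd (Nat.eq_of_beq_eq_true h1) hi0
    · rw [he'] at h1
      exact absurd h1 (by simp)
    · obtain ⟨z, hz, h2⟩ := List.any_eq_true.mp h1
      obtain ⟨g, hg, h3⟩ := anySym_spec h2
      refine sym_reply g hg hi (reply_of_W (hn z hz) ?_)
      intro j _ hj
      rw [cellOf_inj hj]
      exact h3
  · obtain ⟨z, hz⟩ := List.exists_mem_of_ne_nil zs hne
    refine reply_of_W (hn z hz) ?_
    intro i hi hci
    exact absurd ⟨i, hi, hci⟩ hex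

/-- From replies to the whole game. -/
theorem game_of_replies {n : ℕ}
    (h : ∀ y : Cell, y ≠ (0, 0) → MakerForces n {((0 : ℤ), (0 : ℤ))} {y}) :
    MakerForces (n + 1) ∅ ∅ := by
  refine Or.inr ⟨(0, 0), by simp, by simp, fun y hy _ => ?_⟩
  have hy' : y ≠ (0, 0) := by simpa using hy
  simpa using h y hy'

end Vale.Agent.Lib.P062
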